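import Mathlib

open scoped ComplexOrder
open Matrix

namespace Vale.Agent.P358

open Classical in
/-- von Neumann entropy in bits of a Hermitian matrix: minus the sum of `l * log2 l` over its
eigenvalues `l` (only ever applied to density matrices) -/
noncomputable def vnEntropy {I : Type} [Fintype I] [DecidableEq I] (ρ : Matrix I I ℂ) : ℝ :=
  if h : ρ.IsHermitian then -∑ i, h.eigenvalues i * Real.logb 2 (h.eigenvalues i) else 0

/-- density matrices -/
def IsState {I : Type} [Fintype I] (ρ : Matrix I I ℂ) : Prop :=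
  ρ.PosSemidef ∧ ρ.trace = 1

/-- the generalized amplitude-damping channel, as a linear map on all two by two matrices -/
noncomputable def gad (γ ν : ℝ) (ρ : Matrix (Fin 2) (Fin 2) ℂ) : Matrix (Fin 2) (Fin 2) ℂ :=
  !![ρ 0 0 + ρ 1 1 - ((1 - γ : ℝ) * ρ 1 1 + (γ * ν : ℝ) * (ρ 0 0 + ρ 1 1)),
      (√(1 - γ) : ℝ) * ρ 0 1;
    (√(1 - γ) : ℝ) * ρ 1 0, (1 - γ : ℝ) * ρ 1 1 + (γ * ν : ℝ) * (ρ 0 0 + ρ 1 1)]

/-- the `n`-fold tensor power of a linear qubit map: the linear map on `n` qubits sending the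
tensor product of the matrix units `|x' i⟩⟨y' i|` to the tensor product of their images -/
noncomputable def tensorPow (Φ : Matrix (Fin 2) (Fin 2) ℂ → Matrix (Fin 2) (Fin 2) ℂ) (n : ℕ)
    (ρ : Matrix (Fin n → Fin 2) (Fin n → Fin 2) ℂ) : Matrix (Fin n → Fin 2) (Fin n → Fin 2) ℂ :=
  Matrix.of fun x y => ∑ x' : Fin n → Fin 2, ∑ y' : Fin n → Fin 2,
    (∏ i, Φ (Matrix.single (x' i) (y' i) 1) (x i) (y i)) * ρ x' y'

/-- Holevo quantities of all finite ensembles of input states -/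
def holevoValues {I J : Type} [Fintype I] [Fintype J] [DecidableEq J]
    (Φ : Matrix I I ℂ → Matrix J J ℂ) : Set ℝ :=
  {v | ∃ (m : ℕ) (p : Fin m → ℝ) (ρ : Fin m → Matrix I I ℂ),
    (∀ a, 0 ≤ p a) ∧ ∑ a, p a = 1 ∧ (∀ a, IsState (ρ a)) ∧
      v = vnEntropy (∑ a, (p a : ℂ) • Φ (ρ a)) - ∑ a, p a * vnEntropy (Φ (ρ a))}

/-- Holevo capacity -/
noncomputable def holevo {I J : Type} [Fintype I] [Fintype J] [DecidableEq J]
    (Φ : Matrix I I ℂ → Matrix J J ℂ) : ℝ :=
  sSup (holevoValues Φ)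

/-- the rates of the block Holevo capacities -/
def blockRates (Φ : Matrix (Fin 2) (Fin 2) ℂ → Matrix (Fin 2) (Fin 2) ℂ) : Set ℝ :=
  {c | ∃ n : ℕ, 1 ≤ n ∧ c = holevo (tensorPow Φ n) / n}

/-- classical capacity, the regularized Holevo capacity -/
noncomputable def capacity (Φ : Matrix (Fin 2) (Fin 2) ℂ → Matrix (Fin 2) (Fin 2) ℂ) : ℝ :=
  sSup (blockRates Φ)

/-- binary entropy in bits -/
noncomputable def h2 (p : ℝ) : ℝ := -(p * Real.logb 2 p) - (1 - p) * Real.logb 2 (1 - p)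

/-- the scalar function whose maximum over the unit interval is the capacity -/
noncomputable def gadValue (γ ν q : ℝ) : ℝ :=
  h2 ((1 - γ) * q + γ * ν) -
    h2 ((1 + √(1 - 4 * (γ * (1 - γ) * (q - ν) ^ 2 + γ * ν * (1 - ν)))) / 2)

end Vale.Agent.P358
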