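import Mathlib

open MeasureTheory Set Filter Topology

namespace Vale.Agent.P358

/-- quadratic denominator -/
noncomputable def Q (y s : ℝ) : ℝ := 1 + 2 * y * s + s ^ 2

/-- slope function -/
noncomputable def F (y : ℝ) : ℝ := ∫ s in Ioi (0 : ℝ), 1 / Q y s

/-- minus the derivative of the slope function -/
noncomputable def A0 (y : ℝ) : ℝ := ∫ s in Ioi (0 : ℝ), 2 * s / Q y s ^ 2

/-- reciprocal logarithmic mean -/
noncomputable def ell (l m : ℝ) : ℝ := ∫ t in Ioi (0 : ℝ), 1 / ((l + t) * (m + t))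

lemma Q_ge {y s : ℝ} (hy : 0 ≤ y) (hs : 0 < s) : 1 + s ^ 2 ≤ Q y s := by
  unfold Q; nlinarith [mul_nonneg hy hs.le]

lemma Q_pos {y s : ℝ} (hy : 0 ≤ y) (hs : 0 < s) : 0 < Q y s :=
  lt_of_lt_of_le (by positivity) (Q_ge hy hs)

lemma int_of_le {f : ℝ → ℝ} (hf : Measurable f) (C : ℝ)
    (h : ∀ s, 0 < s → |f s| ≤ C * (1 + s ^ 2)⁻¹) : IntegrableOn f (Ioi 0) := by
  refine Integrable.mono' ((integrable_inv_one_add_sq.const_mul C).integrableOn)
    hf.aestronglyMeasurable ?_
  filter_upwards [ae_restrict_mem measurableSet_Ioi] with s hs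
  exact h s hs

lemma intF {y : ℝ} (hy : 0 ≤ y) : IntegrableOn (fun s => 1 / Q y s) (Ioi 0) := by
  refine int_of_le (by unfold Q; fun_prop) 1 fun s hs => ?_
  have h1 := Q_ge hy hs
  have h2 := Q_pos hy hs
  rw [abs_of_nonneg (by positivity), one_mul, one_div]
  exact inv_anti₀ (by positivity) h1

lemma intA0 {y : ℝ} (hy : 0 ≤ y) : IntegrableOn (fun s => 2 * s / Q y s ^ 2) (Ioi 0) := by
  refine int_of_le (by unfold Q; fun_prop) 1 fun s hs => ?_
  have h1 := Q_ge hy hs
  have h2 := Q_pos hy hs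
  rw [abs_of_nonneg (by positivity), one_mul, ← one_div, div_le_div_iff₀ (by positivity)
    (by positivity)]
  have h3 : 2 * s ≤ Q y s := by nlinarith [sq_nonneg (s - 1)]
  nlinarith [mul_le_mul h3 h1 (by positivity) h2.le]

lemma F_nonneg {y : ℝ} (hy : 0 ≤ y) : 0 ≤ F y :=
  setIntegral_nonneg measurableSet_Ioi fun s hs => by
    have := Q_pos hy hs
    positivity

lemma A0_nonneg {y : ℝ} (hy : 0 ≤ y) : 0 ≤ A0 y :=
  setIntegral_nonneg measurableSet_Ioi fun s hs => by
    have := Q_pos hy hs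
    have hs' : 0 < s := hs
    positivity

lemma F_tangent {y y0 : ℝ} (hy : 0 ≤ y) (hy0 : 0 ≤ y0) : F y0 - A0 y0 * (y - y0) ≤ F y := by
  unfold F A0
  rw [← integral_mul_const, ← integral_sub (intF hy0) ((intA0 hy0).mul_const _)]
  refine setIntegral_mono_on ((intF hy0).sub ((intA0 hy0).mul_const _)) (intF hy)
    measurableSet_Ioi fun s hs => ?_
  have h1 := Q_pos hy hs
  have h2 := Q_pos hy0 hs
  have e : Q y s = Q y0 s + 2 * s * (y - y0) := by unfold Q; ring
  have : 1 / Q y s - (1 / Q y0 s - 2 * s / Q y0 s ^ 2 * (y - y0)) =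
      (2 * s * (y - y0)) ^ 2 / (Q y s * Q y0 s ^ 2) := by
    field_simp
    rw [e]
    ring
  have h3 : 0 ≤ (2 * s * (y - y0)) ^ 2 / (Q y s * Q y0 s ^ 2) := by positivity
  linarith

lemma F_anti {y y0 : ℝ} (hy0 : 0 ≤ y0) (h : y0 ≤ y) : F y ≤ F y0 := by
  have h1 := F_tangent hy0 (hy0.trans h)
  have h2 := A0_nonneg (hy0.trans h)
  nlinarith

lemma prod_ge {l m t : ℝ} (hl : 0 < l) (hm : 0 < m) (ht : 0 < t) :
    min (l * m) 1 * (1 + t ^ 2) ≤ (l + t) * (m + t) := by
  have h1 : min (l * m) 1 ≤ l * m := min_le_left _ _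
  have h2 : min (l * m) 1 ≤ 1 := min_le_right _ _
  have h3 : min (l * m) 1 * t ^ 2 ≤ t ^ 2 := by nlinarith [sq_nonneg t]
  nlinarith [mul_pos hl ht, mul_pos hm ht]

lemma one_div_prod_le {l m t : ℝ} (hl : 0 < l) (hm : 0 < m) (ht : 0 < t) :
    1 / ((l + t) * (m + t)) ≤ (min (l * m) 1)⁻¹ * (1 + t ^ 2)⁻¹ := by
  have h0 : 0 < min (l * m) 1 := lt_min (mul_pos hl hm) one_pos
  rw [← mul_inv, one_div]
  exact inv_anti₀ (by positivity) (prod_ge hl hm ht)

lemma int_ell {l m : ℝ} (hl : 0 < l) (hm : 0 < m) :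
    IntegrableOn (fun t => 1 / ((l + t) * (m + t))) (Ioi 0) := by
  refine int_of_le (by fun_prop) (min (l * m) 1)⁻¹ fun t ht => ?_
  rw [abs_of_nonneg (by positivity)]
  exact one_div_prod_le hl hm ht

lemma int_w {l m : ℝ} (hl : 0 < l) (hm : 0 < m) :
    IntegrableOn (fun t => t / ((l + t) ^ 2 * (m + t))) (Ioi 0) := by
  refine int_of_le (by fun_prop) (min (l * m) 1)⁻¹ fun t ht => ?_
  rw [abs_of_nonneg (by positivity)]
  refine le_trans ?_ (one_div_prod_le hl hm ht)
  rw [div_le_div_iff₀ (by positivity) (by positivity)]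
  nlinarith [mul_pos (mul_pos hl (add_pos hl ht)) (add_pos hm ht)]

lemma tendsto_div_prod {l m : ℝ} (hl : 0 < l) (hm : 0 < m) :
    Tendsto (fun t : ℝ => -(t / ((l + t) * (m + t)))) atTop (𝓝 0) := by
  have h1 : Tendsto (fun t : ℝ => (m + t)⁻¹) atTop (𝓝 0) :=
    tendsto_inv_atTop_zero.comp (tendsto_atTop_add_const_left _ _ tendsto_id)
  have h2 : Tendsto (fun t : ℝ => t / ((l + t) * (m + t))) atTop (𝓝 0) := by
    refine squeeze_zero' ?_ ?_ h1
    · filter_upwards [eventually_gt_atTop 0] with t ht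
      positivity
    · filter_upwards [eventually_gt_atTop 0] with t ht
      rw [← one_div, div_le_div_iff₀ (by positivity) (by positivity)]
      nlinarith [mul_pos hl (add_pos hm ht)]
  simpa using h2.neg

lemma w_add {l m : ℝ} (hl : 0 < l) (hm : 0 < m) :
    (∫ t in Ioi (0 : ℝ), t / ((l + t) ^ 2 * (m + t))) +
      (∫ t in Ioi (0 : ℝ), t / ((m + t) ^ 2 * (l + t))) = ell l m := by
  have hd : ∀ t ∈ Ici (0 : ℝ), HasDerivAt (fun t : ℝ => -(t / ((l + t) * (m + t))))
      (t / ((l + t) ^ 2 * (m + t)) + t / ((m + t) ^ 2 * (l + t)) - 1 / ((l + t) * (m + t))) t := by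
    intro t ht
    have ht' : 0 ≤ t := ht
    have h1 : l + t ≠ 0 := by positivity
    have h2 : m + t ≠ 0 := by positivity
    have := ((hasDerivAt_id t).div (((hasDerivAt_id t).const_add l).mul
      ((hasDerivAt_id t).const_add m)) (mul_ne_zero h1 h2)).neg
    refine HasDerivAt.congr_deriv this ?_
    simp only [id, Pi.mul_apply]
    field_simp
    ring
  have hi := ((int_w hl hm).add (int_w hm hl)).sub (int_ell hl hm)
  have h := integral_Ioi_of_hasDerivAt_of_tendsto' hd hi (tendsto_div_prod hl hm)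
  have hs : IntegrableOn (fun t => t / ((l + t) ^ 2 * (m + t)) + t / ((m + t) ^ 2 * (l + t)))
      (Ioi 0) := (int_w hl hm).add (int_w hm hl)
  rw [integral_sub hs (int_ell hl hm), integral_add (int_w hl hm) (int_w hm hl)] at h
  unfold ell
  simp only [zero_div, neg_zero, sub_zero] at h
  linarith

lemma ell_scale {l m : ℝ} (hl : 0 < l) (hm : 0 < m) :
    √(l * m) * ell l m = F ((l + m) / (2 * √(l * m))) := by
  set g := √(l * m) with hg
  have hg0 : 0 < g := Real.sqrt_pos.mpr (mul_pos hl hm)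
  have hg2 : g ^ 2 = l * m := Real.sq_sqrt (mul_pos hl hm).le
  have h := integral_comp_mul_left_Ioi (fun t => 1 / ((l + t) * (m + t))) 0 hg0
  simp only [mul_zero, smul_eq_mul] at h
  unfold F ell
  have e : ∀ s ∈ Ioi (0 : ℝ), 1 / Q ((l + m) / (2 * g)) s =
      g ^ 2 * (1 / ((l + g * s) * (m + g * s))) := by
    intro s hs
    have hs' : 0 < s := hs
    have h1 : (l + g * s) * (m + g * s) = g ^ 2 * Q ((l + m) / (2 * g)) s := by
      unfold Q
      field_simp
      nlinarith
    have h2 := Q_pos (y := (l + m) / (2 * g)) (by positivity) hs'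
    rw [h1]
    field_simp
  rw [setIntegral_congr_fun measurableSet_Ioi e, integral_const_mul, h]
  field_simp

lemma ell_closed {l m : ℝ} (hl : 0 < l) (hm : 0 < m) (hne : l ≠ m) :
    ell l m = (Real.log l - Real.log m) / (l - m) := by
  have hlm : l - m ≠ 0 := sub_ne_zero.mpr hne
  have hd : ∀ t ∈ Ici (0 : ℝ), HasDerivAt
      (fun t : ℝ => (Real.log (m + t) - Real.log (l + t)) / (l - m))
      (1 / ((l + t) * (m + t))) t := by
    intro t ht
    have ht' : 0 ≤ t := ht
    have h1 : l + t ≠ 0 := by positivity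
    have h2 : m + t ≠ 0 := by positivity
    have := ((((hasDerivAt_id t).const_add m).log h2).sub
      (((hasDerivAt_id t).const_add l).log h1)).div_const (l - m)
    refine HasDerivAt.congr_deriv this ?_
    simp only [id]
    field_simp
    ring
  have ht : Tendsto (fun t : ℝ => (Real.log (m + t) - Real.log (l + t)) / (l - m)) atTop
      (𝓝 0) := by
    have h1 : Tendsto (fun t : ℝ => (l + t)⁻¹) atTop (𝓝 0) :=
      tendsto_inv_atTop_zero.comp (tendsto_atTop_add_const_left _ _ tendsto_id)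
    have h2 : Tendsto (fun t : ℝ => Real.log (1 + (m - l) * (l + t)⁻¹)) atTop (𝓝 0) := by
      have := ((h1.const_mul (m - l)).const_add 1).log (by simp)
      simpa using this
    have h3 := h2.div_const (l - m)
    rw [zero_div] at h3
    refine h3.congr' ?_
    filter_upwards [eventually_gt_atTop 0] with t ht
    have h4 : l + t ≠ 0 := by positivity
    have h5 : m + t ≠ 0 := by positivity
    rw [← Real.log_div h5 h4]
    congr 2
    field_simp
    ring
  have h := integral_Ioi_of_hasDerivAt_of_tendsto' hd (int_ell hl hm) ht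
  unfold ell
  rw [h]
  simp only [add_zero]
  ring

lemma ent_fun {l t : ℝ} (hl : 0 < l) (ht : 0 < t) :
    l / (l + t) - l / (1 + t) = l * (1 - l) * (1 / ((l + t) * (1 + t))) := by
  field_simp
  ring

lemma int_ent {l : ℝ} (hl : 0 ≤ l) :
    IntegrableOn (fun t => l / (l + t) - l / (1 + t)) (Ioi 0) := by
  rcases hl.eq_or_lt with rfl | hl
  · simp
  · exact IntegrableOn.congr_fun ((int_ell hl one_pos).const_mul (l * (1 - l)))
      (fun t ht => (ent_fun hl ht).symm) measurableSet_Ioi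

lemma integral_ent {l : ℝ} (hl : 0 ≤ l) :
    ∫ t in Ioi (0 : ℝ), (l / (l + t) - l / (1 + t)) = Real.negMulLog l := by
  rcases hl.eq_or_lt with rfl | hl
  · simp
  · rw [setIntegral_congr_fun measurableSet_Ioi (fun t ht => ent_fun hl ht), integral_const_mul]
    by_cases h1 : l = 1
    · subst h1; simp
    · have := ell_closed hl one_pos h1
      unfold ell at this
      rw [this]
      have h2 : l - 1 ≠ 0 := sub_ne_zero.mpr h1
      unfold Real.negMulLog
      rw [Real.log_one]
      field_simp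
      ring

lemma pair_bound {l m c : ℝ} (hl : 0 < l) (hm : 0 < m) (hc : 0 < c) :
    (F (1 / c) + A0 (1 / c) / c) / √(l * m) - A0 (1 / c) / 2 * (1 / l + 1 / m) ≤ ell l m := by
  have h := ell_scale hl hm
  set g := √(l * m) with hg
  have hg0 : 0 < g := Real.sqrt_pos.mpr (mul_pos hl hm)
  have hg2 : g ^ 2 = l * m := Real.sq_sqrt (mul_pos hl hm).le
  have h2 := F_tangent (y := (l + m) / (2 * g)) (y0 := 1 / c) (by positivity) (by positivity)
  rw [← h] at h2
  have e : (F (1 / c) + A0 (1 / c) / c) / g - A0 (1 / c) / 2 * (1 / l + 1 / m) =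
      (F (1 / c) - A0 (1 / c) * ((l + m) / (2 * g) - 1 / c)) / g := by
    have : 1 / l + 1 / m = (l + m) / g ^ 2 := by rw [hg2]; field_simp; ring
    rw [this]
    field_simp
    ring
  rw [e, div_le_iff₀ hg0]
  linarith

/-- entropy of a qubit state as a function of twice the square root of its determinant -/
noncomputable def eps (c : ℝ) : ℝ := Real.binEntropy ((1 + √(1 - c ^ 2)) / 2)

lemma eps_zero : eps 0 = 0 := by simp [eps]

lemma eps_continuous : Continuous eps := by unfold eps; fun_prop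

lemma eps_deriv {c : ℝ} (h0 : 0 < c) (h1 : c < 1) : HasDerivAt eps (F (1 / c)) c := by
  have hp : 0 < 1 - c ^ 2 := by nlinarith
  set r := √(1 - c ^ 2) with hr
  have hr0 : 0 < r := Real.sqrt_pos.mpr hp
  have hr2 : r ^ 2 = 1 - c ^ 2 := Real.sq_sqrt hp.le
  have hr1 : r < 1 := by nlinarith
  have d1 : HasDerivAt (fun c : ℝ => (1 + √(1 - c ^ 2)) / 2) ((-(2 * c) / (2 * r)) / 2) c := by
    have := ((((hasDerivAt_id c).pow 2).const_sub 1).sqrt hp.ne').const_add 1 |>.div_const 2
    refine HasDerivAt.congr_deriv this ?_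
    simp [hr]
  have d2 := (Real.hasDerivAt_binEntropy (p := (1 + r) / 2) (by positivity) (by linarith)).comp c d1
  refine HasDerivAt.congr_deriv d2 ?_
  have hl : 0 < (1 + r) / 2 := by positivity
  have hm : 0 < (1 - r) / 2 := by linarith
  have h3 := ell_scale hl hm
  have h4 : √((1 + r) / 2 * ((1 - r) / 2)) = c / 2 := by
    rw [show (1 + r) / 2 * ((1 - r) / 2) = (c / 2) ^ 2 by nlinarith]
    exact Real.sqrt_sq (by positivity)
  rw [h4, ell_closed hl hm (by linarith)] at h3
  have h5 : ((1 + r) / 2 + (1 - r) / 2) / (2 * (c / 2)) = 1 / c := by field_simp; ring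
  rw [h5] at h3
  rw [← h3, show 1 - (1 + r) / 2 = (1 - r) / 2 by ring,
    show (1 + r) / 2 - (1 - r) / 2 = r by ring]
  field_simp
  ring

lemma eps_tangent {c c' : ℝ} (h0 : 0 < c) (h1 : c ≤ 1) (h0' : 0 ≤ c') (h1' : c' ≤ 1) :
    eps c + F (1 / c) * (c' - c) ≤ eps c' := by
  rcases lt_trichotomy c' c with h | h | h
  · obtain ⟨x, hx, e⟩ := exists_hasDerivAt_eq_slope eps (fun x => F (1 / x)) h
      eps_continuous.continuousOn
      (fun x hx => eps_deriv (lt_of_le_of_lt h0' hx.1) (lt_of_lt_of_le hx.2 h1))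
    have hx0 : 0 < x := lt_of_le_of_lt h0' hx.1
    have h2 : F (1 / x) ≤ F (1 / c) :=
      F_anti (by positivity) (one_div_le_one_div_of_le hx0 hx.2.le)
    rw [e, div_le_iff₀ (sub_pos.mpr h)] at h2
    linarith
  · subst h; simp
  · obtain ⟨x, hx, e⟩ := exists_hasDerivAt_eq_slope eps (fun x => F (1 / x)) h
      eps_continuous.continuousOn
      (fun x hx => eps_deriv (h0.trans hx.1) (lt_of_lt_of_le hx.2 h1'))
    have hx0 : 0 < x := h0.trans hx.1
    have h2 : F (1 / c) ≤ F (1 / x) :=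
      F_anti (by positivity) (one_div_le_one_div_of_le h0 hx.1.le)
    rw [e, le_div_iff₀ (sub_pos.mpr h)] at h2
    linarith

end Vale.Agent.P358
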