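import Vale.Agent.P350.Basic
import Vale.Agent.P358.Real

open scoped ComplexOrder Matrix MatrixOrder
open Matrix MeasureTheory Set

namespace Vale.Agent.P358

open Vale.Agent.P350

variable {I J : Type} [Fintype I] [DecidableEq I] [Fintype J] [DecidableEq J]

/-- unnormalised entropy in nats -/
noncomputable def ent (A : Matrix I I ℂ) : ℝ :=
  (A.charpoly.roots.map (fun z => Real.negMulLog z.re)).sum

/-- real trace -/
noncomputable def rtr (A : Matrix I I ℂ) : ℝ := (trace A).re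

/-- homogeneous entropy -/
noncomputable def E (A : Matrix I I ℂ) : ℝ := ent A - Real.negMulLog (rtr A)

lemma ent_herm {A : Matrix I I ℂ} (h : A.IsHermitian) :
    ent A = ∑ i, Real.negMulLog (h.eigenvalues i) := by
  unfold ent
  rw [h.roots_charpoly_eq_eigenvalues, Multiset.map_map]
  simp

lemma ent_sd {A : Matrix I I ℂ} (h : A.IsHermitian) :
    ent A = ∑ i, Real.negMulLog (sd A i) := by
  rw [ent_herm h]
  unfold sd
  rw [dif_pos h]

lemma ent_mul_comm (A : Matrix I J ℂ) (B : Matrix J I ℂ) : ent (A * B) = ent (B * A) := by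
  have h := congrArg Polynomial.roots (charpoly_mul_comm' A B)
  rw [Polynomial.roots_mul (mul_ne_zero (pow_ne_zero _ Polynomial.X_ne_zero)
      (charpoly_monic _).ne_zero),
    Polynomial.roots_mul (mul_ne_zero (pow_ne_zero _ Polynomial.X_ne_zero)
      (charpoly_monic _).ne_zero), Polynomial.roots_X_pow, Polynomial.roots_X_pow] at h
  have h2 := congrArg (fun s => (Multiset.map (fun z : ℂ => Real.negMulLog z.re) s).sum) h
  simpa [ent, Multiset.map_nsmul, Multiset.sum_nsmul] using h2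

lemma ent_diagonal (d : I → ℝ) :
    ent (diagonal (fun i => ((d i : ℝ) : ℂ))) = ∑ i, Real.negMulLog (d i) := by
  unfold ent
  rw [charpoly_diagonal, Polynomial.roots_prod]
  · simp
  · simp [Finset.prod_ne_zero_iff, Polynomial.X_sub_C_ne_zero]

lemma ent_conj (U : Matrix J I ℂ) (V : Matrix I J ℂ) (h : V * U = 1) (A : Matrix I I ℂ) :
    ent (U * A * V) = ent A := by
  rw [ent_mul_comm, ← Matrix.mul_assoc, h, Matrix.one_mul]

lemma ent_submatrix (e : J ≃ I) (A : Matrix I I ℂ) : ent (A.submatrix e e) = ent A := by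
  unfold ent
  have := charpoly_reindex e.symm A
  simp only [reindex_apply, Equiv.symm_symm] at this
  rw [this]

omit [DecidableEq I] in
lemma rtr_add (A B : Matrix I I ℂ) : rtr (A + B) = rtr A + rtr B := by simp [rtr]

omit [DecidableEq I] in
lemma rtr_sub (A B : Matrix I I ℂ) : rtr (A - B) = rtr A - rtr B := by simp [rtr]

omit [DecidableEq I] in
lemma rtr_smul (s : ℝ) (A : Matrix I I ℂ) : rtr (s • A) = s * rtr A := by simp [rtr]

omit [DecidableEq I] [DecidableEq J] in
lemma rtr_mul_comm (A : Matrix I J ℂ) (B : Matrix J I ℂ) : rtr (A * B) = rtr (B * A) := by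
  simp [rtr, trace_mul_comm A B]

omit [DecidableEq I] in
lemma rtr_conjTranspose (A : Matrix I I ℂ) : rtr Aᴴ = rtr A := by
  simp [rtr, trace_conjTranspose]

omit [DecidableEq I] in
lemma rtr_nonneg {A : Matrix I I ℂ} (h : A.PosSemidef) : 0 ≤ rtr A :=
  (Complex.nonneg_iff.mp h.trace_nonneg).1

omit [DecidableEq I] in
lemma eq_zero_of_rtr {A : Matrix I I ℂ} (h : A.PosSemidef) (h0 : rtr A = 0) : A = 0 := by
  refine h.trace_eq_zero_iff.mp (Complex.ext h0 ?_)
  exact (Complex.nonneg_iff.mp h.trace_nonneg).2.symm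

lemma rtr_fc (f : ℝ → ℝ) (A : Matrix I I ℂ) : rtr (fc f A) = ∑ i, f (sd A i) := by
  unfold fc
  rw [rtr_mul_comm, ← Matrix.mul_assoc, sU_mul', Matrix.one_mul]
  simp [rtr]

lemma ent_fc (f : ℝ → ℝ) (A : Matrix I I ℂ) :
    ent (fc f A) = ∑ i, Real.negMulLog (f (sd A i)) := by
  unfold fc
  rw [ent_conj _ _ (sU_mul' A), ent_diagonal]

lemma rtr_sd {A : Matrix I I ℂ} (h : A.IsHermitian) : rtr A = ∑ i, sd A i := by
  conv_lhs => rw [← fc_id h]
  exact rtr_fc _ _

lemma ent_smul (s : ℝ) {A : Matrix I I ℂ} (h : A.IsHermitian) :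
    ent (s • A) = s * ent A + Real.negMulLog s * rtr A := by
  conv_lhs => rw [← fc_id h, fc_smul, ent_fc]
  rw [ent_sd h, rtr_sd h, Finset.mul_sum, Finset.mul_sum, ← Finset.sum_add_distrib]
  refine Finset.sum_congr rfl fun i _ => ?_
  rw [Real.negMulLog_mul]
  ring

lemma E_smul (s : ℝ) {A : Matrix I I ℂ} (h : A.IsHermitian) : E (s • A) = s * E A := by
  unfold E
  rw [ent_smul s h, rtr_smul, Real.negMulLog_mul]
  ring

lemma E_mul_comm (A : Matrix I J ℂ) (B : Matrix J I ℂ) : E (A * B) = E (B * A) := by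
  unfold E
  rw [ent_mul_comm, rtr_mul_comm]

lemma E_submatrix (e : J ≃ I) (A : Matrix I I ℂ) : E (A.submatrix e e) = E A := by
  unfold E rtr
  rw [ent_submatrix]
  congr 3
  exact Equiv.sum_comp e (fun i => A i i)

lemma E_of_rtr {A : Matrix I I ℂ} (h : rtr A = 1) : E A = ent A := by simp [E, h]

lemma ent_zero : ent (0 : Matrix I I ℂ) = 0 := by
  have := ent_diagonal (fun _ : I => (0 : ℝ))
  simpa using this

lemma E_zero : E (0 : Matrix I I ℂ) = 0 := by simp [E, ent_zero, rtr]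

/-- resolvent -/
noncomputable def Rz (t : ℝ) (P : Matrix I I ℂ) : Matrix I I ℂ := fc (fun x => 1 / (x + t)) P

lemma Rz_mul {P : Matrix I I ℂ} (hP : P.PosSemidef) {t : ℝ} (ht : 0 < t) :
    Rz t P * (P + t • 1) = 1 := by
  have e : P + t • 1 = fc (fun x => x + t) P := by
    rw [← fc_add, fc_id hP.1, fc_const]
  rw [e, Rz, fc_mul, ← fc_one P]
  refine fc_congr fun i => ?_
  have := sd_nonneg hP i
  field_simp

lemma mul_Rz {P : Matrix I I ℂ} (hP : P.PosSemidef) {t : ℝ} (ht : 0 < t) :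
    (P + t • 1) * Rz t P = 1 := mul_eq_one_comm.mp (Rz_mul hP ht)

lemma Rz_herm (t : ℝ) (P : Matrix I I ℂ) : (Rz t P)ᴴ = Rz t P := fc_conjTranspose _ _

lemma res_var {P : Matrix I I ℂ} (hP : P.PosSemidef) {t : ℝ} (ht : 0 < t) (G : Matrix I I ℂ) :
    2 * rtr G - rtr (Gᴴ * (P + t • 1) * G) ≤ rtr (Rz t P) := by
  have hS : (P + t • (1 : Matrix I I ℂ)).PosSemidef := hP.add (PosSemidef.one.smul ht.le)
  have h := rtr_nonneg (hS.conjTranspose_mul_mul_same (Rz t P - G))
  have e : (Rz t P - G)ᴴ * (P + t • 1) * (Rz t P - G) =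
      Rz t P - G - Gᴴ + Gᴴ * (P + t • 1) * G := by
    rw [conjTranspose_sub, Rz_herm, Matrix.sub_mul, Rz_mul hP ht, Matrix.mul_sub, Matrix.sub_mul,
      Matrix.sub_mul, Matrix.mul_assoc Gᴴ, mul_Rz hP ht]
    simp only [Matrix.one_mul, Matrix.mul_one]
    abel
  rw [e, rtr_add, rtr_sub, rtr_sub, rtr_conjTranspose] at h
  linarith

/-- integrand of the entropy -/
noncomputable def ig (P : Matrix I I ℂ) (t : ℝ) : ℝ :=
  Fintype.card I - t * rtr (Rz t P) - rtr P / (1 + t)

lemma ig_eq {P : Matrix I I ℂ} (hP : P.PosSemidef) {t : ℝ} (ht : 0 < t) :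
    ig P t = ∑ i, (sd P i / (sd P i + t) - sd P i / (1 + t)) := by
  unfold ig Rz
  rw [rtr_fc, rtr_sd hP.1, Finset.mul_sum, Finset.sum_div, Finset.sum_sub_distrib]
  congr 1
  rw [← Finset.card_univ, Finset.card_eq_sum_ones, Nat.cast_sum, ← Finset.sum_sub_distrib]
  refine Finset.sum_congr rfl fun i _ => ?_
  have := sd_nonneg hP i
  field_simp
  push_cast
  ring

lemma int_ig {P : Matrix I I ℂ} (hP : P.PosSemidef) : IntegrableOn (ig P) (Ioi 0) :=
  IntegrableOn.congr_fun (integrable_finsetSum _ fun i _ => int_ent (sd_nonneg hP i))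
    (fun _ ht => (ig_eq hP ht).symm) measurableSet_Ioi

lemma integral_ig {P : Matrix I I ℂ} (hP : P.PosSemidef) :
    ∫ t in Ioi (0 : ℝ), ig P t = ent P := by
  rw [setIntegral_congr_fun measurableSet_Ioi (fun _ ht => ig_eq hP ht),
    integral_finsetSum _ fun i _ => int_ent (sd_nonneg hP i), ent_sd hP.1]
  exact Finset.sum_congr rfl fun i _ => integral_ent (sd_nonneg hP i)

lemma ent_concave {A B : Matrix I I ℂ} (hA : A.PosSemidef) (hB : B.PosSemidef) {p q : ℝ}
    (hp : 0 ≤ p) (hq : 0 ≤ q) (hpq : p + q = 1) :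
    p * ent A + q * ent B ≤ ent (p • A + q • B) := by
  have hC : (p • A + q • B).PosSemidef := (hA.smul hp).add (hB.smul hq)
  rw [← integral_ig hA, ← integral_ig hB, ← integral_ig hC, ← integral_const_mul,
    ← integral_const_mul, ← integral_add ((int_ig hA).const_mul p) ((int_ig hB).const_mul q)]
  refine setIntegral_mono_on (((int_ig hA).const_mul p).add ((int_ig hB).const_mul q))
    (int_ig hC) measurableSet_Ioi fun t ht => ?_
  have ht' : 0 < t := ht
  set R := Rz t (p • A + q • B) with hR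
  have h1 := res_var hA ht' R
  have h2 := res_var hB ht' R
  have e : p • (Rᴴ * (A + t • 1) * R) + q • (Rᴴ * (B + t • 1) * R) = R := by
    have e1 : p • (A + t • (1 : Matrix I I ℂ)) + q • (B + t • 1) = p • A + q • B + t • 1 := by
      rw [smul_add, smul_add, add_add_add_comm, ← add_smul, hpq, one_smul]
    have e3 : p • (Rᴴ * (A + t • 1) * R) + q • (Rᴴ * (B + t • 1) * R) =
        Rᴴ * (p • (A + t • (1 : Matrix I I ℂ)) + q • (B + t • 1)) * R := by
      simp only [Matrix.mul_add Rᴴ (p • _), Matrix.add_mul, Matrix.mul_smul, Matrix.smul_mul]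
    rw [e3, e1, hR, Rz_herm, Rz_mul hC ht', Matrix.one_mul]
  have e2 := congrArg rtr e
  rw [rtr_add, rtr_smul, rtr_smul] at e2
  have h3 : rtr R ≤ p * rtr (Rz t A) + q * rtr (Rz t B) := by
    have a1 := mul_le_mul_of_nonneg_left h1 hp
    have a2 := mul_le_mul_of_nonneg_left h2 hq
    have : p * (2 * rtr R) + q * (2 * rtr R) = 2 * rtr R := by rw [← add_mul, hpq, one_mul]
    linarith
  unfold ig
  rw [rtr_add, rtr_smul, rtr_smul, ← hR]
  have h4 : p * (Fintype.card I : ℝ) + q * Fintype.card I = Fintype.card I := by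
    rw [← add_mul, hpq, one_mul]
  have h5 := mul_le_mul_of_nonneg_left h3 ht'.le
  have h6 : (p * rtr A + q * rtr B) / (1 + t) = p * (rtr A / (1 + t)) + q * (rtr B / (1 + t)) := by
    ring
  rw [h6]
  linarith

lemma E_add {A B : Matrix I I ℂ} (hA : A.PosSemidef) (hB : B.PosSemidef) :
    E A + E B ≤ E (A + B) := by
  rcases (rtr_nonneg hA).eq_or_lt with h0 | ha
  · rw [eq_zero_of_rtr hA h0.symm, E_zero, zero_add, zero_add]
  rcases (rtr_nonneg hB).eq_or_lt with h0 | hb
  · rw [eq_zero_of_rtr hB h0.symm, E_zero, add_zero, add_zero]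
  set a := rtr A with ha'
  set b := rtr B with hb'
  have hab : 0 < a + b := by positivity
  have h := ent_concave (hA.smul (inv_pos.mpr ha).le) (hB.smul (inv_pos.mpr hb).le)
    (p := a / (a + b)) (q := b / (a + b)) (by positivity) (by positivity) (by field_simp)
  have e : (a / (a + b)) • a⁻¹ • A + (b / (a + b)) • b⁻¹ • B = (a + b)⁻¹ • (A + B) := by
    rw [smul_smul, smul_smul, smul_add]
    congr 2 <;> field_simp
  rw [e, ← E_of_rtr (A := a⁻¹ • A) (by rw [rtr_smul, ← ha']; field_simp),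
    ← E_of_rtr (A := b⁻¹ • B) (by rw [rtr_smul, ← hb']; field_simp),
    ← E_of_rtr (A := (a + b)⁻¹ • (A + B)) (by rw [rtr_smul, rtr_add, ← ha', ← hb']; field_simp),
    E_smul _ hA.1, E_smul _ hB.1, E_smul _ (hA.add hB).1] at h
  have h2 := mul_le_mul_of_nonneg_left h hab.le
  have e1 : (a + b) * (a / (a + b) * (a⁻¹ * E A) + b / (a + b) * (b⁻¹ * E B)) = E A + E B := by
    field_simp
  have e2 : (a + b) * ((a + b)⁻¹ * E (A + B)) = E (A + B) := by field_simp
  rwa [e1, e2] at h2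

lemma E_blocks {P : Matrix I I ℂ} {W : Matrix I J ℂ} {W' : Matrix J I ℂ} {Q : Matrix J J ℂ}
    (h : (fromBlocks P W W' Q).PosSemidef) : E P + E Q ≤ E (fromBlocks P W W' Q) := by
  obtain ⟨B, hB⟩ := CStarAlgebra.nonneg_iff_eq_star_mul_self.mp h.nonneg
  rw [star_eq_conjTranspose] at hB
  have e0 : B = fromCols B.toCols₁ B.toCols₂ := (fromCols_toCols B).symm
  have e1 : Bᴴ * B = fromBlocks ((B.toCols₁)ᴴ * B.toCols₁) ((B.toCols₁)ᴴ * B.toCols₂)
      ((B.toCols₂)ᴴ * B.toCols₁) ((B.toCols₂)ᴴ * B.toCols₂) := by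
    conv_lhs => rw [e0]
    rw [conjTranspose_fromCols_eq_fromRows_conjTranspose, fromRows_mul_fromCols]
  have e2 : B * Bᴴ = B.toCols₁ * (B.toCols₁)ᴴ + B.toCols₂ * (B.toCols₂)ᴴ := by
    conv_lhs => rw [e0]
    rw [conjTranspose_fromCols_eq_fromRows_conjTranspose, fromCols_mul_fromRows]
  have e3 := hB.trans e1
  obtain ⟨hP, -, -, hQ⟩ := fromBlocks_inj.mp e3
  rw [hB, E_mul_comm, e2, hP, hQ, E_mul_comm (B.toCols₁)ᴴ, E_mul_comm (B.toCols₂)ᴴ]
  exact E_add (posSemidef_self_mul_conjTranspose _) (posSemidef_self_mul_conjTranspose _)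

end Vale.Agent.P358
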