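import Vale.Agent.P358.Step

open scoped ComplexOrder Matrix MatrixOrder
open Matrix

namespace Vale.Agent.P358

open Vale.Agent.P350

variable {I J κ : Type} [Fintype I] [DecidableEq I] [Fintype J] [DecidableEq J] [Fintype κ]

/-- completely positive map in Kraus form -/
noncomputable def kr (K : κ → Matrix J I ℂ) (τ : Matrix I I ℂ) : Matrix J J ℂ :=
  ∑ k, K k * τ * (K k)ᴴ

omit [DecidableEq I] [Fintype J] [DecidableEq J] in
lemma kr_add (K : κ → Matrix J I ℂ) (A B : Matrix I I ℂ) : kr K (A + B) = kr K A + kr K B := by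
  simp [kr, Matrix.mul_add, Matrix.add_mul, Finset.sum_add_distrib]

omit [DecidableEq I] [Fintype J] [DecidableEq J] in
lemma kr_smul (K : κ → Matrix J I ℂ) (z : ℂ) (A : Matrix I I ℂ) : kr K (z • A) = z • kr K A := by
  simp [kr, Finset.smul_sum]

omit [DecidableEq I] [Fintype J] [DecidableEq J] in
lemma kr_star (K : κ → Matrix J I ℂ) (A : Matrix I I ℂ) : kr K Aᴴ = (kr K A)ᴴ := by
  simp [kr, conjTranspose_sum, Matrix.mul_assoc]

omit [DecidableEq I] [DecidableEq J] in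
lemma kr_psd (K : κ → Matrix J I ℂ) {A : Matrix I I ℂ} (h : A.PosSemidef) :
    (kr K A).PosSemidef :=
  posSemidef_sum _ fun k _ => h.mul_mul_conjTranspose_same (K k)

omit [DecidableEq I] [DecidableEq J] in
lemma kr_block (K : κ → Matrix J I ℂ) {X Y Z : Matrix I I ℂ}
    (h : (fromBlocks X Y Yᴴ Z).PosSemidef) :
    (fromBlocks (kr K X) (kr K Y) (kr K Y)ᴴ (kr K Z)).PosSemidef := by
  have h1 := kr_psd (fun k => fromBlocks (K k) 0 0 (K k)) h
  convert h1 using 1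
  rw [← kr_star]
  simp only [kr, fromBlocks_conjTranspose, fromBlocks_multiply, conjTranspose_zero,
    Matrix.zero_mul, Matrix.mul_zero, add_zero, zero_add]
  ext (i | i) (j | j) <;> simp [Matrix.sum_apply]

omit [DecidableEq I] [Fintype J] [DecidableEq J] in
lemma kr_Gm (K : κ → Matrix J I ℂ) (X Y Z : Matrix I I ℂ) (z : ℂ) (s : ℝ) :
    kr K (Gm X Y Z z s) = Gm (kr K X) (kr K Y) (kr K Z) z s := by
  simp only [Gm, kr_add, kr_smul, kr_star]

lemma good_of (K : κ → Matrix J I ℂ) {H : Matrix I I ℂ} (hH : H.IsHermitian)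
    (hφ : ∀ τ : Matrix I I ℂ, τ.PosSemidef → rtr (H * τ) ≤ E (kr K τ)) {X Y Z : Matrix I I ℂ}
    (h : (fromBlocks X Y Yᴴ Z).PosSemidef) :
    Good (kr K X) (kr K Y) (kr K Z) (rtr (H * X)) (trace (H * Y)) (rtr (H * Z)) := by
  refine ⟨hφ _ (psd_br h), fun z s hs => ?_⟩
  have h1 : (Gm X Y Z z s).PosSemidef := by
    have e : Gm X Y Z z s = Gm X Y Z z (Complex.normSq z) + (s - Complex.normSq z) • Z := by
      rw [← csmul_eq, Gm, Gm]
      push_cast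
      module
    rw [e]
    exact (psd_tl (psd_shift h z)).add ((psd_br h).smul (sub_nonneg.mpr hs))
  rw [← kr_Gm]
  refine le_trans (le_of_eq ?_) (hφ _ h1)
  have e : trace (H * Yᴴ) = star (trace (H * Y)) := by
    rw [← trace_conjTranspose, conjTranspose_mul, hH.eq, trace_mul_comm]
  simp only [Gm, Matrix.mul_add, Matrix.mul_smul, rtr_add, rtr_csmul]
  simp only [rtr, trace_smul, e, smul_eq_mul, Complex.star_def, Complex.mul_re, Complex.conj_re,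
    Complex.conj_im]
  ring

/-- admissible supporting lines of the entropy curve -/
def Tan (α f : ℝ) : Prop :=
  (α = 0 ∧ f = 0) ∨ ∃ c0 : ℝ, 0 < c0 ∧ c0 ≤ 1 ∧ α = eps c0 - F (1 / c0) * c0 ∧ f = F (1 / c0)

lemma adc_kr (K : κ → Matrix J I ℂ) (hK : ∀ τ, rtr (kr K τ) = rtr τ) {H : Matrix I I ℂ}
    (hH : H.IsHermitian) (hφ : ∀ τ : Matrix I I ℂ, τ.PosSemidef → rtr (H * τ) ≤ E (kr K τ))
    {X Y Z : Matrix I I ℂ} (h : (fromBlocks X Y Yᴴ Z).PosSemidef) {A β δ : ℝ} (hβ : 0 ≤ β)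
    (hδ : 0 ≤ δ) {α f : ℝ} (hT : Tan α f) :
    (om (((A ^ 2 : ℝ) : ℂ) • kr K X) ((A : ℂ) • kr K Y) (kr K Z) β δ).PosSemidef ∧
    A ^ 2 * rtr (H * X) + (β ^ 2 + δ ^ 2) * rtr (H * Z) +
      α * (A ^ 2 * rtr X + (β ^ 2 + δ ^ 2) * rtr Z) + f * (2 * β * δ * rtr Z) ≤
      E (om (((A ^ 2 : ℝ) : ℂ) • kr K X) ((A : ℂ) • kr K Y) (kr K Z) β δ) := by
  have h1 : (fromBlocks (((A ^ 2 : ℝ) : ℂ) • X) ((A : ℂ) • Y) ((A : ℂ) • Y)ᴴ Z).PosSemidef := by
    have := h.mul_mul_conjTranspose_same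
      (fromBlocks ((A : ℂ) • (1 : Matrix I I ℂ)) 0 0 (1 : Matrix I I ℂ))
    convert this using 1
    rw [fromBlocks_conjTranspose, fromBlocks_multiply, fromBlocks_multiply]
    simp only [conjTranspose_one, conjTranspose_zero, conjTranspose_smul, Matrix.one_mul,
      Matrix.mul_one, Matrix.zero_mul, Matrix.mul_zero, Matrix.smul_mul, Matrix.mul_smul,
      zero_add, add_zero, smul_smul, Complex.star_def, Complex.conj_ofReal, pow_two,
      Complex.ofReal_mul]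
  have h2 := kr_block K h1
  have h3 := good_of K hH hφ h1
  rw [← kr_smul, ← kr_smul]
  refine ⟨psd_om h2 β δ, ?_⟩
  rcases hT with ⟨rfl, rfl⟩ | ⟨c0, h0, h1, rfl, rfl⟩
  · have := om_base h2 h3 β δ
    rw [Matrix.mul_smul, rtr_csmul] at this
    linarith
  · have := adc h2 h3 hβ hδ h0 h1
    rw [Matrix.mul_smul, rtr_csmul, hK, hK, rtr_csmul] at this
    exact this

/-- output of a phase covariant qubit map tensored with a second map -/
noncomputable def outp (P W R : Matrix J J ℂ) (a b c d e : ℝ) : Matrix (J ⊕ J) (J ⊕ J) ℂ :=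
  fromBlocks ((a : ℂ) • P + (b : ℂ) • R) ((e : ℂ) • W) ((e : ℂ) • Wᴴ) ((c : ℂ) • P + (d : ℂ) • R)

lemma two_kr (K : κ → Matrix J I ℂ) (hK : ∀ τ, rtr (kr K τ) = rtr τ) {H : Matrix I I ℂ}
    (hH : H.IsHermitian) (hφ : ∀ τ : Matrix I I ℂ, τ.PosSemidef → rtr (H * τ) ≤ E (kr K τ))
    {X Y Z : Matrix I I ℂ} (h : (fromBlocks X Y Yᴴ Z).PosSemidef) {A1 A2 B C D1 D2 : ℝ}
    (hA1 : 0 ≤ A1) (hB : 0 ≤ B) (hC : 0 ≤ C) (hD2 : 0 ≤ D2) {a b c d e : ℝ}
    (ha : A1 ^ 2 + A2 ^ 2 = a) (hb : B ^ 2 = b) (hc : C ^ 2 = c) (hd : D1 ^ 2 + D2 ^ 2 = d)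
    (he : A2 * D2 + A1 * D1 = e) (hac : a + c = 1) (hbd : b + d = 1) {α f : ℝ} (hT : Tan α f) :
    rtr (H * X) + rtr (H * Z) + (α + f * (2 * C * A1)) * rtr X + (α + f * (2 * B * D2)) * rtr Z ≤
      E (outp (kr K X) (kr K Y) (kr K Z) a b c d e) := by
  have h' : (fromBlocks Z Yᴴ Yᴴᴴ X).PosSemidef := by
    have := h.submatrix (Sum.swap : I ⊕ I → I ⊕ I)
    rwa [fromBlocks_submatrix_sum_swap_sum_swap, ← conjTranspose_conjTranspose Y,
      conjTranspose_conjTranspose Yᴴ] at this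
  obtain ⟨p2, e2⟩ := adc_kr K hK hH hφ h (A := A2) hB hD2 hT
  obtain ⟨p1, e1⟩ := adc_kr K hK hH hφ h' (A := D1) hC hA1 hT
  rw [← E_submatrix (Equiv.sumComm J J)] at e1
  have h3 := E_add p2 (p1.submatrix (Equiv.sumComm J J))
  have e : om (((A2 ^ 2 : ℝ) : ℂ) • kr K X) ((A2 : ℂ) • kr K Y) (kr K Z) B D2 +
      (om (((D1 ^ 2 : ℝ) : ℂ) • kr K Z) ((D1 : ℂ) • kr K Yᴴ) (kr K X) C A1).submatrix
        (Equiv.sumComm J J) (Equiv.sumComm J J) = outp (kr K X) (kr K Y) (kr K Z) a b c d e := by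
    rw [om, om, Equiv.sumComm_apply, fromBlocks_submatrix_sum_swap_sum_swap, fromBlocks_add, outp,
      ← ha, ← hb, ← hc, ← hd, ← he, kr_star]
    simp only [conjTranspose_smul, conjTranspose_conjTranspose, Complex.star_def,
      Complex.conj_ofReal]
    congr 1
    · push_cast; module
    · push_cast; module
    · push_cast; module
    · push_cast; module
  rw [e] at h3
  refine le_trans (le_of_eq ?_) ((add_le_add e2 e1).trans h3)
  subst ha hb hc hd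
  linear_combination (-(rtr (H * X) + α * rtr X)) * hac - (rtr (H * Z) + α * rtr Z) * hbd

/-- determinant of the output for a pure input -/
noncomputable def Dq (γ ν q : ℝ) : ℝ := γ * (1 - γ) * (q - ν) ^ 2 + γ * ν * (1 - ν)

/-- admissible weights for one more use of the channel -/
def Wok (γ ν w0 w1 : ℝ) : Prop :=
  ∀ (I J κ : Type) [Fintype I] [DecidableEq I] [Fintype J] [DecidableEq J] [Fintype κ]
    (K : κ → Matrix J I ℂ) (_ : ∀ τ, rtr (kr K τ) = rtr τ) (H : Matrix I I ℂ)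
    (_ : H.IsHermitian) (_ : ∀ τ : Matrix I I ℂ, τ.PosSemidef → rtr (H * τ) ≤ E (kr K τ))
    (X Y Z : Matrix I I ℂ) (_ : (fromBlocks X Y Yᴴ Z).PosSemidef),
    rtr (H * X) + rtr (H * Z) + w0 * rtr X + w1 * rtr Z ≤
      E (outp (kr K X) (kr K Y) (kr K Z) (1 - γ * ν) (γ * (1 - ν)) (γ * ν) (1 - γ * (1 - ν))
        (√(1 - γ)))

lemma Dq_nonneg {γ ν : ℝ} (hγ : γ ∈ Set.Icc (0 : ℝ) 1) (hν : ν ∈ Set.Icc (0 : ℝ) 1) (q : ℝ) :
    0 ≤ Dq γ ν q := by
  have := hγ.1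
  have := sub_nonneg.mpr hγ.2
  have := hν.1
  have := sub_nonneg.mpr hν.2
  unfold Dq
  positivity

lemma Dq_le {γ ν q : ℝ} (hγ : γ ∈ Set.Icc (0 : ℝ) 1) (hq : q ∈ Set.Icc (0 : ℝ) 1) :
    4 * Dq γ ν q ≤ 1 := by
  have h : 0 ≤ (1 - γ) * (q * (1 - q)) :=
    mul_nonneg (sub_nonneg.mpr hγ.2) (mul_nonneg hq.1 (sub_nonneg.mpr hq.2))
  have e : 1 - 4 * Dq γ ν q =
      (1 - 2 * ((1 - γ) * q + γ * ν)) ^ 2 + 4 * ((1 - γ) * (q * (1 - q))) := by
    unfold Dq; ring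
  nlinarith [sq_nonneg (1 - 2 * ((1 - γ) * q + γ * ν))]

lemma exists_wok {γ ν q : ℝ} (hγ : γ ∈ Set.Icc (0 : ℝ) 1) (hν : ν ∈ Set.Icc (0 : ℝ) 1)
    (hq : q ∈ Set.Icc (0 : ℝ) 1) :
    ∃ w0 w1 : ℝ, Wok γ ν w0 w1 ∧ w0 * (1 - q) + w1 * q = eps (2 * √(Dq γ ν q)) := by
  have g0 := hγ.1
  have g1 := sub_nonneg.mpr hγ.2
  have n0 := hν.1
  have n1 := sub_nonneg.mpr hν.2
  have q0 := hq.1
  have q1 := sub_nonneg.mpr hq.2
  have hg : √(1 - γ) ^ 2 = 1 - γ := Real.sq_sqrt g1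
  have hB : √(γ * (1 - ν)) ^ 2 = γ * (1 - ν) := Real.sq_sqrt (by positivity)
  have hC : √(γ * ν) ^ 2 = γ * ν := Real.sq_sqrt (by positivity)
  rcases (Dq_nonneg hγ hν q).eq_or_lt with hD | hD
  · refine ⟨0, 0, ?_, by rw [← hD]; simp [eps_zero]⟩
    intro I J κ _ _ _ _ _ K hK H hH hφ X Y Z h
    have h1 : √ν ^ 2 = ν := Real.sq_sqrt n0
    have h2 : √(1 - ν) ^ 2 = 1 - ν := Real.sq_sqrt n1
    have := two_kr K hK hH hφ h (A1 := √ν * √(1 - γ)) (A2 := √(1 - ν)) (B := √(γ * (1 - ν)))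
      (C := √(γ * ν)) (D1 := √ν) (D2 := √(1 - ν) * √(1 - γ)) (by positivity) (by positivity)
      (by positivity) (by positivity) (a := 1 - γ * ν) (d := 1 - γ * (1 - ν)) (e := √(1 - γ))
      (by rw [mul_pow, h1, h2, hg]; ring) hB hC (by rw [mul_pow, h1, h2, hg]; ring)
      (by linear_combination √(1 - γ) * h1 + √(1 - γ) * h2) (by ring) (by ring)
      (Or.inl ⟨rfl, rfl⟩)
    simpa using this
  · set s := √(Dq γ ν q) with hs
    have hs0 : 0 < s := Real.sqrt_pos.mpr hD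
    have hs2 : s ^ 2 = Dq γ ν q := Real.sq_sqrt hD.le
    have hs1 : 2 * s ≤ 1 := by nlinarith [Dq_le (ν := ν) hγ hq]
    set t := (1 - γ) * q + γ * ν with ht
    have t0 : 0 ≤ t := by positivity
    have t1 : 0 ≤ 1 - t := by
      have : 1 - t = (1 - γ) * (1 - q) + γ * (1 - ν) := by rw [ht]; ring
      rw [this]; positivity
    set g := √(1 - γ)
    set B := √(γ * (1 - ν))
    set C := √(γ * ν)
    have g' : 0 ≤ g := Real.sqrt_nonneg _
    have B' : 0 ≤ B := Real.sqrt_nonneg _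
    have C' : 0 ≤ C := Real.sqrt_nonneg _
    have hD' : γ * (1 - ν) * q * t + γ * ν * (1 - t) * (1 - q) = s ^ 2 := by
      rw [hs2, ht, Dq]; ring
    refine ⟨eps (2 * s) - F (1 / (2 * s)) * (2 * s) + F (1 / (2 * s)) * (2 * C * (C * (1 - t) / s)),
      eps (2 * s) - F (1 / (2 * s)) * (2 * s) + F (1 / (2 * s)) * (2 * B * (B * t / s)), ?_, ?_⟩
    · intro I J κ _ _ _ _ _ K hK H hH hφ X Y Z h
      refine two_kr K hK hH hφ h (A1 := C * (1 - t) / s) (A2 := B * g * q / s) (B := B)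
        (C := C) (D1 := C * g * (1 - q) / s) (D2 := B * t / s) (by positivity) B' C'
        (by positivity) ?_ hB hC ?_ ?_ (by ring) (by ring)
        (Or.inr ⟨2 * s, by positivity, hs1, rfl, rfl⟩)
      · field_simp
        rw [hB, hC, hg, hs2, ht, Dq]
        ring
      · field_simp
        rw [hB, hC, hg, hs2, ht, Dq]
        ring
      · field_simp
        rw [hB, hC, ← hD']
        ring
    · field_simp
      rw [hB, hC]
      linear_combination (2 * F (1 / (2 * s))) * hD'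

end Vale.Agent.P358
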