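import Vale.Agent.P358.Ent

open scoped ComplexOrder Matrix MatrixOrder
open Matrix MeasureTheory Set

namespace Vale.Agent.P358

open Vale.Agent.P350

variable {I : Type} [Fintype I] [DecidableEq I]

/-- matrix written in the eigenbasis of `w` -/
noncomputable def eb (w A : Matrix I I ℂ) : Matrix I I ℂ := (sU w)ᴴ * A * sU w

/-- the quadratic form giving the second derivative of the entropy -/
noncomputable def Kf (l : I → ℝ) (A : Matrix I I ℂ) : ℝ :=
  ∑ i, ∑ j, if 0 < l i ∧ 0 < l j then ‖A i j‖ ^ 2 * ell (l i) (l j) else 0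

/-- real diagonal matrix -/
noncomputable def dg (l : I → ℝ) : Matrix I I ℂ := diagonal (fun i => ((l i : ℝ) : ℂ))

lemma eb_mul (w A B : Matrix I I ℂ) : eb w (A * B) = eb w A * eb w B := by
  unfold eb
  calc (sU w)ᴴ * (A * B) * sU w = (sU w)ᴴ * (A * (sU w * (sU w)ᴴ) * B) * sU w := by
        rw [sU_mul, Matrix.mul_one]
    _ = _ := by simp only [Matrix.mul_assoc]

lemma eb_add (w A B : Matrix I I ℂ) : eb w (A + B) = eb w A + eb w B := by
  simp [eb, Matrix.add_mul, Matrix.mul_add]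

lemma eb_sub (w A B : Matrix I I ℂ) : eb w (A - B) = eb w A - eb w B := by
  simp [eb, Matrix.sub_mul, Matrix.mul_sub]

lemma eb_smul (w A : Matrix I I ℂ) (s : ℝ) : eb w (s • A) = s • eb w A := by simp [eb]

lemma eb_fc (f : ℝ → ℝ) (w : Matrix I I ℂ) : eb w (fc f w) = dg (fun i => f (sd w i)) :=
  conj_fc f w

lemma eb_self {w : Matrix I I ℂ} (h : w.IsHermitian) : eb w w = dg (sd w) := by
  conv_lhs => rw [show eb w w = eb w (fc (fun t => t) w) by rw [fc_id h]]
  exact eb_fc _ _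

lemma rtr_eb (w A : Matrix I I ℂ) : rtr (eb w A) = rtr A := by
  unfold eb
  rw [rtr_mul_comm, ← Matrix.mul_assoc, sU_mul, Matrix.one_mul]

lemma eb_herm (w : Matrix I I ℂ) {A : Matrix I I ℂ} (h : A.IsHermitian) : (eb w A).IsHermitian :=
  isHermitian_conjTranspose_mul_mul _ h

lemma eb_psd (w : Matrix I I ℂ) {A : Matrix I I ℂ} (h : A.PosSemidef) : (eb w A).PosSemidef :=
  h.conjTranspose_mul_mul_same _

omit [Fintype I] [DecidableEq I] in
lemma herm_norm {A : Matrix I I ℂ} (h : A.IsHermitian) (i j : I) : ‖A j i‖ = ‖A i j‖ := by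
  rw [← h.apply j i, norm_star]

omit [Fintype I] [DecidableEq I] in
lemma herm_mul {A : Matrix I I ℂ} (h : A.IsHermitian) (i j : I) :
    A i j * A j i = ((‖A i j‖ ^ 2 : ℝ) : ℂ) := by
  rw [← h.apply j i, Complex.star_def, Complex.mul_conj, Complex.normSq_eq_norm_sq]

lemma rtr_dAdAd (a b c : I → ℝ) {A : Matrix I I ℂ} (h : A.IsHermitian) :
    rtr (dg a * A * dg b * A * dg c) = ∑ i, ∑ j, ‖A i j‖ ^ 2 * (a i * b j * c i) := by
  unfold rtr trace dg
  simp only [diag_apply, mul_diagonal, Complex.re_sum]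
  refine Finset.sum_congr rfl fun i _ => ?_
  rw [Matrix.mul_apply, Finset.sum_mul, Complex.re_sum]
  refine Finset.sum_congr rfl fun j _ => ?_
  rw [mul_diagonal, diagonal_mul]
  have : (a i : ℂ) * A i j * (b j : ℂ) * A j i * (c i : ℂ) =
      ((‖A i j‖ ^ 2 * (a i * b j * c i) : ℝ) : ℂ) := by
    rw [Complex.ofReal_mul, ← herm_mul h]
    push_cast
    ring
  rw [this, Complex.ofReal_re]

lemma res_gap {w A : Matrix I I ℂ} (hw : w.PosSemidef) (hA : A.IsHermitian)
    (hp : (w + A).PosSemidef) (hm : (w - A).PosSemidef) {t : ℝ} (ht : 0 < t) :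
    2 * rtr (Rz t w) + 2 * rtr (Rz t w * A * Rz t w * A * Rz t w) ≤
      rtr (Rz t (w + A)) + rtr (Rz t (w - A)) := by
  set R := Rz t w with hR
  set S := w + t • (1 : Matrix I I ℂ) with hS
  have hRS : R * S = 1 := Rz_mul hw ht
  have hRh : Rᴴ = R := Rz_herm _ _
  have h1 := res_var hp ht (R - R * A * R)
  have h2 := res_var hm ht (R + R * A * R)
  have e1 : w + A + t • (1 : Matrix I I ℂ) = S + A := by rw [hS]; abel
  have e2 : w - A + t • (1 : Matrix I I ℂ) = S - A := by rw [hS]; abel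
  have a1 : (R - R * A * R)ᴴ * (S + A) = 1 - R * A * R * A := by
    rw [conjTranspose_sub, conjTranspose_mul, conjTranspose_mul, hRh, hA.eq, Matrix.mul_add,
      Matrix.sub_mul, Matrix.sub_mul, hRS, ← Matrix.mul_assoc, Matrix.mul_assoc (R * A) R S, hRS,
      Matrix.mul_one]
    abel
  have a2 : (R + R * A * R)ᴴ * (S - A) = 1 - R * A * R * A := by
    rw [conjTranspose_add, conjTranspose_mul, conjTranspose_mul, hRh, hA.eq, Matrix.mul_sub,
      Matrix.add_mul, Matrix.add_mul, hRS, ← Matrix.mul_assoc, Matrix.mul_assoc (R * A) R S, hRS,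
      Matrix.mul_one]
    abel
  rw [e1, a1] at h1
  rw [e2, a2] at h2
  simp only [Matrix.mul_sub, Matrix.sub_mul, Matrix.mul_add, Matrix.one_mul, rtr_sub,
    rtr_add] at h1 h2
  linarith

lemma gap {w A : Matrix I I ℂ} (hw : w.PosSemidef) (hA : A.IsHermitian)
    (hp : (w + A).PosSemidef) (hm : (w - A).PosSemidef) :
    ent (w + A) + ent (w - A) + Kf (sd w) (eb w A) ≤ 2 * ent w := by
  set l := sd w with hl
  set B := eb w A with hB
  have hBh : B.IsHermitian := eb_herm w hA
  let g : I → I → ℝ → ℝ := fun i j t =>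
    if 0 < l i ∧ 0 < l j then 2 * ‖B i j‖ ^ 2 * (t / ((l i + t) ^ 2 * (l j + t))) else 0
  have hg : ∀ i j, IntegrableOn (g i j) (Ioi 0) := by
    intro i j
    by_cases h : 0 < l i ∧ 0 < l j
    · simp only [g, if_pos h]
      exact (int_w h.1 h.2).const_mul _
    · simp only [g, if_neg h]
      exact integrableOn_zero
  have hG : IntegrableOn (fun t => ∑ i, ∑ j, g i j t) (Ioi 0) :=
    integrable_finsetSum _ fun i _ => integrable_finsetSum _ fun j _ => hg i j
  have hK : ∫ t in Ioi (0 : ℝ), ∑ i, ∑ j, g i j t = Kf l B := by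
    rw [integral_finsetSum _ fun i _ => integrable_finsetSum _ fun j _ => hg i j]
    simp_rw [integral_finsetSum _ fun j _ => hg _ j]
    let u : I → I → ℝ := fun i j => if 0 < l i ∧ 0 < l j then
      ‖B i j‖ ^ 2 * ∫ t in Ioi (0 : ℝ), t / ((l i + t) ^ 2 * (l j + t)) else 0
    have e1 : ∀ i j, ∫ t in Ioi (0 : ℝ), g i j t = u i j + u i j := by
      intro i j
      by_cases h : 0 < l i ∧ 0 < l j
      · simp only [g, u, if_pos h]
        rw [integral_const_mul]
        ring
      · simp [g, u, if_neg h]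
    simp_rw [e1, Finset.sum_add_distrib]
    conv_lhs => rw [Finset.sum_comm (f := u)]
    conv_lhs => congr; rfl; rw [Finset.sum_comm (f := fun i j => u j i)]
    unfold Kf
    rw [← Finset.sum_add_distrib]
    refine Finset.sum_congr rfl fun i _ => ?_
    rw [← Finset.sum_add_distrib]
    refine Finset.sum_congr rfl fun j _ => ?_
    by_cases h : 0 < l i ∧ 0 < l j
    · simp only [u, if_pos h, if_pos h.symm]
      rw [herm_norm hBh i j, ← w_add h.1 h.2]
      ring
    · have h' : ¬ (0 < l j ∧ 0 < l i) := fun h' => h h'.symm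
      simp [u, if_neg h, if_neg h']
  rw [← integral_ig hp, ← integral_ig hm, ← integral_ig hw, ← hK, ← integral_const_mul,
    ← integral_add (int_ig hp) (int_ig hm)]
  have hs : IntegrableOn (fun t => ig (w + A) t + ig (w - A) t) (Ioi 0) :=
    (int_ig hp).add (int_ig hm)
  rw [← integral_add hs hG]
  refine setIntegral_mono_on (hs.add hG) ((int_ig hw).const_mul 2) measurableSet_Ioi
    fun t ht => ?_
  have ht' : 0 < t := ht
  have h1 := res_gap hw hA hp hm ht'
  have h2 : rtr (Rz t w * A * Rz t w * A * Rz t w) =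
      ∑ i, ∑ j, ‖B i j‖ ^ 2 * (1 / (l i + t) * (1 / (l j + t)) * (1 / (l i + t))) := by
    rw [← rtr_eb w, eb_mul, eb_mul, eb_mul, eb_mul, Rz, eb_fc, rtr_dAdAd _ _ _ hBh]
  have h3 : ∑ i, ∑ j, g i j t ≤ t * (2 * rtr (Rz t w * A * Rz t w * A * Rz t w)) := by
    rw [h2, ← mul_assoc, Finset.mul_sum]
    refine Finset.sum_le_sum fun i _ => ?_
    rw [Finset.mul_sum]
    refine Finset.sum_le_sum fun j _ => ?_
    have hi : 0 ≤ l i := sd_nonneg hw i
    have hj : 0 ≤ l j := sd_nonneg hw j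
    by_cases h : 0 < l i ∧ 0 < l j
    · simp only [g, if_pos h]
      refine le_of_eq ?_
      field_simp
    · simp only [g, if_neg h]
      positivity
  have h4 := mul_le_mul_of_nonneg_left h1 ht'.le
  unfold ig
  rw [rtr_add, rtr_sub]
  have h5 : (rtr w + rtr A) / (1 + t) + (rtr w - rtr A) / (1 + t) = 2 * (rtr w / (1 + t)) := by
    ring
  linarith

omit [DecidableEq I] in
lemma Kf_smul (l : I → ℝ) (A : Matrix I I ℂ) (s : ℝ) : Kf l (s • A) = s ^ 2 * Kf l A := by
  unfold Kf
  simp only [Finset.mul_sum]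
  refine Finset.sum_congr rfl fun i _ => Finset.sum_congr rfl fun j _ => ?_
  split_ifs
  · rw [Matrix.smul_apply, norm_smul, mul_pow, Real.norm_eq_abs, sq_abs, mul_assoc]
  · simp

omit [DecidableEq I] in
lemma Kf_lower {l : I → ℝ} (hl : ∀ i, 0 ≤ l i) {A : Matrix I I ℂ} (hA : A.IsHermitian) {c : ℝ}
    (hc : 0 < c) :
    (F (1 / c) + A0 (1 / c) / c) * ∑ i, ∑ j, ‖A i j‖ ^ 2 / √(l i * l j) -
      A0 (1 / c) * ∑ i, ∑ j, ‖A i j‖ ^ 2 / l i ≤ Kf l A := by
  have ha := A0_nonneg (y := 1 / c) (by positivity)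
  have e : ∑ i, ∑ j, ‖A i j‖ ^ 2 / l i =
      ∑ i, ∑ j, ‖A i j‖ ^ 2 / 2 * (1 / l i + 1 / l j) := by
    have e1 : ∑ i, ∑ j, ‖A i j‖ ^ 2 / l i = ∑ i, ∑ j, ‖A i j‖ ^ 2 / l j := by
      rw [Finset.sum_comm]
      exact Finset.sum_congr rfl fun i _ => Finset.sum_congr rfl fun j _ => by
        rw [herm_norm hA]
    have e2 : ∑ i, ∑ j, ‖A i j‖ ^ 2 / 2 * (1 / l i + 1 / l j) =
        (∑ i, ∑ j, ‖A i j‖ ^ 2 / l i + ∑ i, ∑ j, ‖A i j‖ ^ 2 / l j) / 2 := by
      rw [← Finset.sum_add_distrib, Finset.sum_div]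
      refine Finset.sum_congr rfl fun i _ => ?_
      rw [← Finset.sum_add_distrib, Finset.sum_div]
      exact Finset.sum_congr rfl fun j _ => by ring
    rw [e2, ← e1]
    ring
  rw [e]
  unfold Kf
  simp only [Finset.mul_sum, ← Finset.sum_sub_distrib]
  refine Finset.sum_le_sum fun i _ => Finset.sum_le_sum fun j _ => ?_
  split_ifs with h
  · have := mul_le_mul_of_nonneg_left (pair_bound h.1 h.2 hc) (sq_nonneg ‖A i j‖)
    refine le_trans (le_of_eq ?_) this
    ring
  · have h0 : l i * l j = 0 := by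
      rcases (hl i).eq_or_lt with h1 | h1
      · rw [← h1, zero_mul]
      rcases (hl j).eq_or_lt with h2 | h2
      · rw [← h2, mul_zero]
      exact absurd ⟨h1, h2⟩ h
    rw [h0, Real.sqrt_zero, div_zero, mul_zero, zero_sub, neg_nonpos]
    have := hl i
    have := hl j
    positivity

omit [Fintype I] in
lemma dg_herm (l : I → ℝ) : (dg l)ᴴ = dg l := by
  unfold dg
  rw [diagonal_conjTranspose]
  congr 1
  ext i
  simp

lemma dg_mul (a b : I → ℝ) : dg a * dg b = dg (fun i => a i * b i) := by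
  unfold dg
  rw [diagonal_mul_diagonal]
  simp

lemma rtr_dg (a : I → ℝ) : rtr (dg a) = ∑ i, a i := by simp [rtr, dg]

lemma sum_bound {l : I → ℝ} {A : Matrix I I ℂ} (hA : A.IsHermitian)
    (hp : (dg l + A).PosSemidef) (hm : (dg l - A).PosSemidef) :
    ∑ i, ∑ j, ‖A i j‖ ^ 2 / l i ≤ ∑ i, l i := by
  set P := dg (fun i => 1 / l i) with hP
  have hPh : Pᴴ = P := dg_herm _
  have hPP : P * dg l * P = P := by
    rw [hP, dg_mul, dg_mul]
    congr 1
    ext i
    by_cases h : l i = 0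
    · simp [h]
    · field_simp
  have h1 := rtr_nonneg ((hp.conjTranspose_mul_mul_same (1 - P * A)).add
    (hm.conjTranspose_mul_mul_same (1 + P * A)))
  have e : (1 - P * A)ᴴ * (dg l + A) * (1 - P * A) + (1 + P * A)ᴴ * (dg l - A) * (1 + P * A) =
      (2 : ℝ) • (dg l - A * P * A) := by
    have e1 : A * P * dg l * (P * A) = A * P * A := by
      calc A * P * dg l * (P * A) = A * (P * dg l * P) * A := by simp only [Matrix.mul_assoc]
        _ = _ := by rw [hPP]
    simp only [conjTranspose_sub, conjTranspose_add, conjTranspose_one, conjTranspose_mul, hPh,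
      hA.eq, Matrix.sub_mul, Matrix.mul_sub, Matrix.add_mul, Matrix.mul_add, Matrix.one_mul,
      Matrix.mul_one, e1, two_smul, ← Matrix.mul_assoc A P A]
    abel
  rw [e, rtr_smul, rtr_sub, rtr_dg] at h1
  have e2 : rtr (A * P * A) = ∑ i, ∑ j, ‖A i j‖ ^ 2 / l i := by
    have := rtr_dAdAd (fun _ => 1) (fun i => 1 / l i) (fun _ => 1) hA
    have e3 : dg (fun _ : I => (1 : ℝ)) = 1 := by simp [dg]
    rw [e3, Matrix.one_mul, Matrix.mul_one] at this
    rw [this, Finset.sum_comm]
    exact Finset.sum_congr rfl fun i _ => Finset.sum_congr rfl fun j _ => by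
      rw [herm_norm hA]; ring
  rw [e2] at h1
  linarith

lemma psd_row_zero {M : Matrix I I ℂ} (hM : M.PosSemidef) {i : I} (h : M i i = 0) (j : I) :
    M i j = 0 := by
  obtain ⟨B, rfl⟩ := CStarAlgebra.nonneg_iff_eq_star_mul_self.mp hM.nonneg
  rw [star_eq_conjTranspose] at h ⊢
  have h1 : ∑ k, ‖B k i‖ ^ 2 = 0 := by
    have := congrArg Complex.re h
    rw [Matrix.mul_apply, Complex.re_sum] at this
    rw [← Complex.zero_re, ← this]
    refine Finset.sum_congr rfl fun k _ => ?_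
    rw [conjTranspose_apply, Complex.star_def, Complex.conj_mul', ← Complex.ofReal_pow,
      Complex.ofReal_re]
  have h2 : ∀ k, B k i = 0 := by
    intro k
    have := (Finset.sum_eq_zero_iff_of_nonneg (fun k _ => sq_nonneg ‖B k i‖)).mp h1 k
      (Finset.mem_univ k)
    simpa using this
  simp [Matrix.mul_apply, h2]

lemma supp_zero {l : I → ℝ} {B : Matrix I I ℂ} (hp : (dg l + B).PosSemidef)
    (hm : (dg l - B).PosSemidef) {i : I} (h : l i = 0) (j : I) : B i j = 0 := by
  have h1 := hp.diag_nonneg (i := i)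
  have h2 := hm.diag_nonneg (i := i)
  simp only [dg, Matrix.add_apply, Matrix.sub_apply, diagonal_apply_eq, h, Complex.ofReal_zero,
    zero_add, zero_sub] at h1 h2
  have h3 : B i i = 0 := le_antisymm (neg_nonneg.mp h2) h1
  have h4 := psd_row_zero hp (i := i) (by simp [dg, h, h3]) j
  by_cases hij : i = j
  · rw [← hij, h3]
  · simpa [dg, hij] using h4

omit [Fintype I] [DecidableEq I] in
lemma psd_mix {w A : Matrix I I ℂ} (hw : w.PosSemidef) (hp : (w + A).PosSemidef) {s : ℝ}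
    (h0 : 0 ≤ s) (h1 : s ≤ 1) : (w + s • A).PosSemidef := by
  have e : w + s • A = (1 - s) • w + s • (w + A) := by
    rw [smul_add, sub_smul, one_smul]; abel
  rw [e]
  exact (hw.smul (sub_nonneg.mpr h1)).add (hp.smul h0)

omit [Fintype I] [DecidableEq I] in
lemma psd_mix' {w A : Matrix I I ℂ} (hw : w.PosSemidef) (hm : (w - A).PosSemidef) {s : ℝ}
    (h0 : 0 ≤ s) (h1 : s ≤ 1) : (w - s • A).PosSemidef := by
  have := psd_mix (A := -A) hw (by rwa [← sub_eq_add_neg]) h0 h1
  rwa [smul_neg, ← sub_eq_add_neg] at this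

lemma key {w Y B : Matrix I I ℂ} (hw : w.PosSemidef) (htr : rtr w = 1) (hY : Y.IsHermitian)
    (hY1 : (1 + Y).PosSemidef) (hY2 : (1 - Y).PosSemidef) (hB : B.IsHermitian)
    (hB1 : (w + B).PosSemidef) (hB2 : (w - B).PosSemidef) {c : ℝ} (hc : 0 < c)
    (hcB : rtr (Y * B) = c) {s : ℝ} (h0 : 0 ≤ s) (h1 : s ≤ 1) :
    ent (fc Real.sqrt w * (1 + s • Y) * fc Real.sqrt w) +
      ent (fc Real.sqrt w * (1 - s • Y) * fc Real.sqrt w) +
      ent (w + s • B) + ent (w - s • B) + 2 * s ^ 2 * (c * F (1 / c)) ≤ 4 * ent w := by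
  set W := fc Real.sqrt w with hW
  have hWh : Wᴴ = W := fc_conjTranspose _ _
  have hWW : W * W = w := by
    rw [hW, fc_mul]
    conv_rhs => rw [← fc_id hw.1]
    exact fc_congr fun i => Real.mul_self_sqrt (sd_nonneg hw i)
  set A := W * Y * W with hA
  have hAh : A.IsHermitian := by
    have := isHermitian_conjTranspose_mul_mul W hY
    rwa [hWh] at this
  have hA1 : (w + A).PosSemidef := by
    have := hY1.conjTranspose_mul_mul_same W
    rwa [hWh, Matrix.mul_add, Matrix.add_mul, Matrix.mul_one, hWW] at this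
  have hA2 : (w - A).PosSemidef := by
    have := hY2.conjTranspose_mul_mul_same W
    rwa [hWh, Matrix.mul_sub, Matrix.sub_mul, Matrix.mul_one, hWW] at this
  have e1 : W * (1 + s • Y) * W = w + s • A := by
    rw [Matrix.mul_add, Matrix.add_mul, Matrix.mul_one, hWW, Matrix.mul_smul, Matrix.smul_mul]
  have e2 : W * (1 - s • Y) * W = w - s • A := by
    rw [Matrix.mul_sub, Matrix.sub_mul, Matrix.mul_one, hWW, Matrix.mul_smul, Matrix.smul_mul]
  have hsm : ∀ {C : Matrix I I ℂ}, C.IsHermitian → (s • C).IsHermitian := by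
    intro C hC
    unfold IsHermitian
    rw [conjTranspose_smul, hC.eq, star_trivial]
  have g1 := gap hw (hsm hAh) (psd_mix hw hA1 h0 h1) (psd_mix' hw hA2 h0 h1)
  have g2 := gap hw (hsm hB) (psd_mix hw hB1 h0 h1) (psd_mix' hw hB2 h0 h1)
  rw [eb_smul, Kf_smul] at g1 g2
  rw [e1, e2]
  set l := sd w with hl
  have hl0 : ∀ i, 0 ≤ l i := sd_nonneg hw
  have hsum : ∑ i, l i = 1 := by rw [← htr, rtr_sd hw.1]
  have k1 := Kf_lower hl0 (eb_herm w hAh) hc
  have k2 := Kf_lower hl0 (eb_herm w hB) hc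
  have pA1 := eb_psd w hA1
  have pA2 := eb_psd w hA2
  have pB1 := eb_psd w hB1
  have pB2 := eb_psd w hB2
  rw [eb_add, eb_self hw.1] at pA1 pB1
  rw [eb_sub, eb_self hw.1] at pA2 pB2
  have s1 := sum_bound (eb_herm w hAh) pA1 pA2
  have s2 := sum_bound (eb_herm w hB) pB1 pB2
  rw [hsum] at s1 s2
  have hYt := eb_herm w hY
  have hBt := eb_herm w hB
  have eA : ∀ i j, eb w A i j = (√(l i * l j) : ℝ) * eb w Y i j := by
    intro i j
    rw [hA, eb_mul, eb_mul, hW, eb_fc, dg, mul_diagonal, diagonal_mul, Real.sqrt_mul (hl0 i)]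
    push_cast
    ring
  have cross : 2 * c ≤ ∑ i, ∑ j, ‖eb w A i j‖ ^ 2 / √(l i * l j) +
      ∑ i, ∑ j, ‖eb w B i j‖ ^ 2 / √(l i * l j) := by
    rw [← hcB, ← rtr_eb w, eb_mul, rtr_mul_comm]
    unfold rtr trace
    simp only [diag_apply, Matrix.mul_apply, Complex.re_sum, Finset.mul_sum,
      ← Finset.sum_add_distrib]
    refine Finset.sum_le_sum fun i _ => Finset.sum_le_sum fun j _ => ?_
    rcases (mul_nonneg (hl0 i) (hl0 j)).eq_or_lt with h | h
    · have : eb w B i j = 0 := by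
        rcases mul_eq_zero.mp h.symm with h' | h'
        · exact supp_zero pB1 pB2 h' j
        · rw [← hBt.apply i j, supp_zero pB1 pB2 h' i, star_zero]
      rw [this, ← h]
      simp
    · have hg : 0 < √(l i * l j) := Real.sqrt_pos.mpr h
      rw [eA, ← hYt.apply j i, ← add_div, le_div_iff₀ hg]
      set g := √(l i * l j)
      set y := eb w Y i j
      set b := eb w B i j
      rw [norm_mul, mul_pow, Complex.norm_real, Real.norm_eq_abs, sq_abs, Complex.sq_norm,
        Complex.sq_norm, Complex.normSq_apply, Complex.normSq_apply]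
      simp only [Complex.star_def, Complex.mul_re, Complex.conj_re, Complex.conj_im]
      nlinarith [sq_nonneg (g * y.re - b.re), sq_nonneg (g * y.im - b.im)]
  have ha := A0_nonneg (y := 1 / c) (by positivity)
  have hF := F_nonneg (y := 1 / c) (by positivity)
  have ha1 : 0 ≤ F (1 / c) + A0 (1 / c) / c := by positivity
  have t1 := mul_le_mul_of_nonneg_left cross ha1
  have t2 := mul_le_mul_of_nonneg_left s1 ha
  have t3 := mul_le_mul_of_nonneg_left s2 ha
  have t4 : (F (1 / c) + A0 (1 / c) / c) * (2 * c) = 2 * (c * F (1 / c)) + 2 * A0 (1 / c) := by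
    field_simp
  have t5 : 2 * (c * F (1 / c)) ≤ Kf l (eb w A) + Kf l (eb w B) := by linarith
  have t6 := mul_le_mul_of_nonneg_left t5 (sq_nonneg s)
  linarith

end Vale.Agent.P358
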