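import Vale.Agent.P358.Tensor

open scoped ComplexOrder Matrix MatrixOrder
open Matrix

namespace Vale.Agent.P358

open Vale.Agent.P350

lemma ent_le_diag {I : Type} [Fintype I] [DecidableEq I] {ω : Matrix I I ℂ} (h : ω.PosSemidef) :
    ent ω ≤ ∑ x, Real.negMulLog (ω x x).re := by
  have e1 : ∀ x, (ω x x).re = ∑ k, ‖sU ω x k‖ ^ 2 • sd ω k := by
    intro x
    conv_lhs => rw [← fc_id h.1]
    simp only [fc, Matrix.mul_apply, conjTranspose_apply, Complex.re_sum]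
    refine Finset.sum_congr rfl fun k _ => ?_
    rw [← Matrix.mul_apply, mul_diagonal, mul_right_comm, Complex.star_def,
      Complex.mul_conj', ← Complex.ofReal_pow, ← Complex.ofReal_mul, Complex.ofReal_re, smul_eq_mul]
  have e2 : ∀ x, ∑ k, ‖sU ω x k‖ ^ 2 = 1 := by
    intro x
    have := congrArg Complex.re (congrFun (congrFun (sU_mul ω) x) x)
    simp only [Matrix.mul_apply, conjTranspose_apply, Complex.star_def, Complex.mul_conj',
      one_apply_eq, Complex.one_re, Complex.re_sum, ← Complex.ofReal_pow, Complex.ofReal_re] at this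
    exact this
  have e3 : ∀ k, ∑ x, ‖sU ω x k‖ ^ 2 = 1 := by
    intro x
    have := congrArg Complex.re (congrFun (congrFun (sU_mul' ω) x) x)
    simp only [Matrix.mul_apply, conjTranspose_apply, Complex.star_def, Complex.conj_mul',
      one_apply_eq, Complex.one_re, Complex.re_sum, ← Complex.ofReal_pow, Complex.ofReal_re] at this
    exact this
  calc ent ω = ∑ k, ∑ x, ‖sU ω x k‖ ^ 2 • Real.negMulLog (sd ω k) := by
        rw [ent_sd h.1]
        refine Finset.sum_congr rfl fun k _ => ?_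
        rw [← Finset.sum_smul, e3, one_smul]
    _ ≤ _ := by
        rw [Finset.sum_comm]
        refine Finset.sum_le_sum fun x _ => ?_
        rw [e1]
        exact Real.concaveOn_negMulLog.le_map_sum (fun k _ => sq_nonneg _) (e2 x)
          (fun k _ => sd_nonneg h k)

lemma gibbs {n : ℕ} (p : (Fin n → Fin 2) → ℝ) (hp : ∀ x, 0 ≤ p x) (h1 : ∑ x, p x = 1)
    (m : Fin n → Fin 2 → ℝ) (hm0 : ∀ i a, 0 ≤ m i a) (hm1 : ∀ i, ∑ a, m i a = 1)
    (hpm : ∀ x i, p x ≤ m i (x i)) :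
    ∑ x, Real.negMulLog (p x) ≤ ∑ i, ∑ x, (-Real.log (m i (x i))) * p x := by
  have hs : ∑ x : Fin n → Fin 2, ∏ i, m i (x i) = 1 := by
    rw [sum_prod]
    simp only [hm1, Finset.prod_const_one]
  rw [Finset.sum_comm]
  have : ∑ x, Real.negMulLog (p x) ≤
      ∑ x, (∑ i, (-Real.log (m i (x i))) * p x + (∏ i, m i (x i) - p x)) := by
    refine Finset.sum_le_sum fun x _ => ?_
    rcases (hp x).eq_or_lt with h0 | h0
    · rw [← h0]
      simpa using Finset.prod_nonneg fun i _ => hm0 i (x i)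
    · have hpos : ∀ i, 0 < m i (x i) := fun i => h0.trans_le (hpm x i)
      have hP : 0 < ∏ i, m i (x i) := Finset.prod_pos fun i _ => hpos i
      rw [← Finset.sum_mul, Finset.sum_neg_distrib, ← Real.log_prod (fun i _ => (hpos i).ne')]
      have h2 := Real.log_le_sub_one_of_pos (div_pos hP h0)
      rw [Real.log_div hP.ne' h0.ne'] at h2
      have h3 := mul_le_mul_of_nonneg_left h2 h0.le
      rw [mul_sub (p x) _ 1, mul_div_cancel₀ _ h0.ne'] at h3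
      rw [Real.negMulLog]
      linarith
  rw [Finset.sum_add_distrib, Finset.sum_sub_distrib, hs, h1] at this
  linarith

/-- excited state population of one qubit -/
noncomputable def mq {n : ℕ} (τ : Matrix (Fin n → Fin 2) (Fin n → Fin 2) ℂ) (i : Fin n) : ℝ :=
  ∑ x, (![0, 1] : Fin 2 → ℝ) (x i) * (τ x x).re

lemma expect_mq {n : ℕ} (τ : Matrix (Fin n → Fin 2) (Fin n → Fin 2) ℂ) (i : Fin n)
    (g : Fin 2 → ℝ) : ∑ x, g (x i) * (τ x x).re = g 0 * (rtr τ - mq τ i) + g 1 * mq τ i := by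
  rw [rtr_eq_sum, mq, ← Finset.sum_sub_distrib, Finset.mul_sum, Finset.mul_sum,
    ← Finset.sum_add_distrib]
  refine Finset.sum_congr rfl fun x _ => ?_
  generalize x i = a
  fin_cases a <;> simp

lemma diag_re_nonneg {I : Type} {τ : Matrix I I ℂ} (h : τ.PosSemidef) (x : I) : 0 ≤ (τ x x).re :=
  (Complex.nonneg_iff.mp (h.diag_nonneg (i := x))).1

lemma diag_le_mq {n : ℕ} {τ : Matrix (Fin n → Fin 2) (Fin n → Fin 2) ℂ} (h : τ.PosSemidef)
    (i : Fin n) (a : Fin 2) :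
    0 ≤ (![rtr τ - mq τ i, mq τ i] : Fin 2 → ℝ) a ∧
      ∀ x : Fin n → Fin 2, x i = a → (τ x x).re ≤ (![rtr τ - mq τ i, mq τ i] : Fin 2 → ℝ) a := by
  have e : (![rtr τ - mq τ i, mq τ i] : Fin 2 → ℝ) a =
      ∑ x, (fun b => if b = a then (1 : ℝ) else 0) (x i) * (τ x x).re := by
    rw [expect_mq τ i (fun b => if b = a then (1 : ℝ) else 0)]
    fin_cases a <;> simp
  have hn : ∀ x ∈ Finset.univ, 0 ≤ (fun b => if b = a then (1 : ℝ) else 0) (x i) * (τ x x).re := by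
    intro x _
    refine mul_nonneg ?_ (diag_re_nonneg h x)
    dsimp only
    split_ifs <;> norm_num
  rw [e]
  refine ⟨Finset.sum_nonneg hn, fun x hx => ?_⟩
  refine le_trans (le_of_eq ?_) (Finset.single_le_sum hn (Finset.mem_univ x))
  simp [hx]

lemma ent_le_marg {n : ℕ} {ω : Matrix (Fin n → Fin 2) (Fin n → Fin 2) ℂ} (h : ω.PosSemidef)
    (h1 : rtr ω = 1) : ent ω ≤ ∑ i, Real.binEntropy (mq ω i) := by
  refine (ent_le_diag h).trans ((gibbs _ (diag_re_nonneg h) (by rw [← rtr_eq_sum, h1])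
    (fun i => ![rtr ω - mq ω i, mq ω i]) (fun i a => (diag_le_mq h i a).1)
    (fun i => by simp [h1]) (fun x i => (diag_le_mq h i _).2 x rfl)).trans (le_of_eq ?_))
  refine Finset.sum_congr rfl fun i _ => ?_
  rw [expect_mq ω i (fun a => -Real.log ((![rtr ω - mq ω i, mq ω i] : Fin 2 → ℝ) a)),
    Real.binEntropy_eq_negMulLog_add_negMulLog_one_sub, h1]
  simp only [Real.negMulLog, Matrix.cons_val_zero, Matrix.cons_val_one]
  ring

lemma mq_tp (γ ν : ℝ) {n : ℕ} (τ : Matrix (Fin n → Fin 2) (Fin n → Fin 2) ℂ) (i : Fin n) :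
    mq (tensorPow (gad γ ν) n τ) i = (1 - γ) * mq τ i + γ * ν * rtr τ := by
  rw [mq, tp_expect, expect_mq τ i (fun b => ∑ a, T γ ν b a * (![0, 1] : Fin 2 → ℝ) a)]
  simp [T]
  ring

lemma rtr_state {I : Type} [Fintype I] {ρ : Matrix I I ℂ} (h : IsState ρ) : rtr ρ = 1 := by
  rw [rtr, h.2, Complex.one_re]

/-- value in nats -/
noncomputable def gv (γ ν q : ℝ) : ℝ :=
  Real.binEntropy ((1 - γ) * q + γ * ν) - eps (2 * √(Dq γ ν q))

lemma tp_psd {γ ν : ℝ} (hγ : γ ∈ Set.Icc (0 : ℝ) 1) (hν : ν ∈ Set.Icc (0 : ℝ) 1) {n : ℕ}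
    {τ : Matrix (Fin n → Fin 2) (Fin n → Fin 2) ℂ} (h : τ.PosSemidef) :
    (tensorPow (gad γ ν) n τ).PosSemidef := by
  rw [tp_kraus hγ hν]
  exact kr_psd _ h

lemma mix_psd {I κ : Type} [Fintype I] [Fintype κ] {p : κ → ℝ} (hp : ∀ a, 0 ≤ p a)
    {σ : κ → Matrix I I ℂ} (h : ∀ a, (σ a).PosSemidef) : (∑ a, (p a : ℂ) • σ a).PosSemidef :=
  posSemidef_sum _ fun a _ => by rw [csmul_eq]; exact (h a).smul (hp a)

lemma upper_nats {γ ν : ℝ} (hγ : γ ∈ Set.Icc (0 : ℝ) 1) (hν : ν ∈ Set.Icc (0 : ℝ) 1) {n m : ℕ}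
    (p : Fin m → ℝ) (ρ : Fin m → Matrix (Fin n → Fin 2) (Fin n → Fin 2) ℂ) (hp : ∀ a, 0 ≤ p a)
    (h1 : ∑ a, p a = 1) (hρ : ∀ a, IsState (ρ a)) :
    ∃ q : Fin n → ℝ, (∀ i, q i ∈ Set.Icc (0 : ℝ) 1) ∧
      ent (∑ a, (p a : ℂ) • tensorPow (gad γ ν) n (ρ a)) -
        ∑ a, p a * ent (tensorPow (gad γ ν) n (ρ a)) ≤ ∑ i, gv γ ν (q i) := by
  have hq : ∀ i, ∑ a, p a * mq (ρ a) i ∈ Set.Icc (0 : ℝ) 1 := by
    intro i
    constructor
    · exact Finset.sum_nonneg fun a _ => mul_nonneg (hp a) (diag_le_mq (hρ a).1 i 1).1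
    · rw [← h1]
      refine Finset.sum_le_sum fun a _ => mul_le_of_le_one_right (hp a) ?_
      have := (diag_le_mq (hρ a).1 i 0).1
      rw [rtr_state (hρ a)] at this
      simpa using this
  refine ⟨fun i => ∑ a, p a * mq (ρ a) i, hq, ?_⟩
  choose w0 w1 hw hw' using fun i => exists_wok hγ hν (hq i)
  have hd : ∀ x, ((∑ a, (p a : ℂ) • tensorPow (gad γ ν) n (ρ a)) x x).re =
      ∑ a, p a * (tensorPow (gad γ ν) n (ρ a) x x).re := by
    intro x
    simp [Matrix.sum_apply]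
  have hu := ent_le_marg (mix_psd hp fun a => tp_psd hγ hν (hρ a).1) (by
    rw [rtr_eq_sum]
    simp only [hd]
    rw [Finset.sum_comm]
    simp only [← Finset.mul_sum, ← rtr_eq_sum, tp_rtr, rtr_state (hρ _), mul_one, h1])
  have hm : ∀ i, mq (∑ a, (p a : ℂ) • tensorPow (gad γ ν) n (ρ a)) i =
      (1 - γ) * (∑ a, p a * mq (ρ a) i) + γ * ν := by
    intro i
    have : mq (∑ a, (p a : ℂ) • tensorPow (gad γ ν) n (ρ a)) i =
        ∑ a, p a * mq (tensorPow (gad γ ν) n (ρ a)) i := by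
      simp only [mq, hd, Finset.mul_sum]
      rw [Finset.sum_comm]
      exact Finset.sum_congr rfl fun a _ => Finset.sum_congr rfl fun x _ => by ring
    rw [this]
    simp only [mq_tp, rtr_state (hρ _), mul_add, Finset.sum_add_distrib, ← Finset.sum_mul, h1,
      Finset.mul_sum]
    congr 1
    · exact Finset.sum_congr rfl fun a _ => by ring
    · ring
  have hl : ∀ a, ∑ i, (w0 i * (1 - mq (ρ a) i) + w1 i * mq (ρ a) i) ≤
      ent (tensorPow (gad γ ν) n (ρ a)) := by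
    intro a
    have := tp_bound hγ hν n (fun i => ![w0 i, w1 i]) (fun i => hw i) _ (hρ a).1
    rw [E_of_rtr (by rw [tp_rtr, rtr_state (hρ a)])] at this
    refine le_trans (le_of_eq ?_) this
    simp only [Finset.sum_mul]
    rw [Finset.sum_comm]
    refine Finset.sum_congr rfl fun i _ => ?_
    rw [expect_mq (ρ a) i ![w0 i, w1 i], rtr_state (hρ a)]
    simp
  have hl2 : ∑ i, eps (2 * √(Dq γ ν (∑ a, p a * mq (ρ a) i))) ≤
      ∑ a, p a * ent (tensorPow (gad γ ν) n (ρ a)) := by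
    refine le_trans (le_of_eq ?_)
      (Finset.sum_le_sum fun a _ => mul_le_mul_of_nonneg_left (hl a) (hp a))
    simp only [Finset.mul_sum]
    rw [Finset.sum_comm]
    refine Finset.sum_congr rfl fun i _ => ?_
    rw [← hw' i]
    conv_lhs => rw [← h1]
    simp only [Finset.mul_sum, ← Finset.sum_sub_distrib, ← Finset.sum_add_distrib]
    exact Finset.sum_congr rfl fun a _ => by ring
  simp only [hm] at hu
  simp only [gv, Finset.sum_sub_distrib]
  linarith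

lemma vn_eq {I : Type} [Fintype I] [DecidableEq I] {ρ : Matrix I I ℂ} (h : ρ.IsHermitian) :
    vnEntropy ρ = ent ρ / Real.log 2 := by
  rw [vnEntropy, dif_pos h, ent_herm h, Finset.sum_div, ← Finset.sum_neg_distrib]
  exact Finset.sum_congr rfl fun i _ => by rw [Real.logb, Real.negMulLog]; ring

lemma h2_eq (p : ℝ) : h2 p = Real.binEntropy p / Real.log 2 := by
  rw [h2, Real.binEntropy_eq_negMulLog_add_negMulLog_one_sub, Real.logb, Real.logb,
    Real.negMulLog, Real.negMulLog]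
  ring

lemma gadValue_eq {γ ν : ℝ} (hγ : γ ∈ Set.Icc (0 : ℝ) 1) (hν : ν ∈ Set.Icc (0 : ℝ) 1) (q : ℝ) :
    gadValue γ ν q = gv γ ν q / Real.log 2 := by
  rw [gadValue, gv, h2_eq, h2_eq, eps, mul_pow, Real.sq_sqrt (Dq_nonneg hγ hν q), Dq, sub_div]
  norm_num

lemma gadValue_cont (γ ν : ℝ) : Continuous (gadValue γ ν) := by
  unfold gadValue
  simp only [h2_eq]
  fun_prop

lemma upper {γ ν : ℝ} (hγ : γ ∈ Set.Icc (0 : ℝ) 1) (hν : ν ∈ Set.Icc (0 : ℝ) 1) {M : ℝ}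
    (hM : ∀ q ∈ Set.Icc (0 : ℝ) 1, gadValue γ ν q ≤ M) (n : ℕ) {v : ℝ}
    (hv : v ∈ holevoValues (tensorPow (gad γ ν) n)) : v ≤ n * M := by
  obtain ⟨m, p, ρ, hp, h1, hρ, rfl⟩ := hv
  obtain ⟨q, hq, h⟩ := upper_nats hγ hν p ρ hp h1 hρ
  have hl : 0 < Real.log 2 := Real.log_pos one_lt_two
  rw [vn_eq (mix_psd hp fun a => tp_psd hγ hν (hρ a).1).1]
  simp only [vn_eq (tp_psd hγ hν (hρ _).1).1, ← mul_div_assoc, ← Finset.sum_div, ← sub_div]
  refine (div_le_div_of_nonneg_right h hl.le).trans ?_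
  rw [Finset.sum_div]
  refine (Finset.sum_le_sum fun i _ => (gadValue_eq hγ hν (q i)).symm.le.trans
    (hM _ (hq i))).trans ?_
  simp

/-- the two optimal signal states -/
noncomputable def psi (q : ℝ) (s : Fin 2) : Matrix (Fin 2) (Fin 2) ℂ :=
  !![((1 - q : ℝ) : ℂ), ((![1, -1] s * (√(1 - q) * √q) : ℝ) : ℂ);
    ((![1, -1] s * (√(1 - q) * √q) : ℝ) : ℂ), (q : ℂ)]

lemma psi_state {q : ℝ} (hq : q ∈ Set.Icc (0 : ℝ) 1) (s : Fin 2) : IsState (psi q s) := by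
  have h1 : ((√q : ℝ) : ℂ) ^ 2 = q := by exact_mod_cast Real.sq_sqrt hq.1
  have h2 : ((√(1 - q) : ℝ) : ℂ) ^ 2 = 1 - q := by
    exact_mod_cast Real.sq_sqrt (sub_nonneg.mpr hq.2)
  refine ⟨?_, by simp [psi, trace_fin_two]⟩
  have h := posSemidef_conjTranspose_mul_self
    (!![((√(1 - q) : ℝ) : ℂ), ((![1, -1] s * √q : ℝ) : ℂ); 0, 0] : Matrix (Fin 2) (Fin 2) ℂ)
  convert h using 1
  ext i j
  fin_cases s <;> fin_cases i <;> fin_cases j <;>
    simp [psi, Matrix.mul_apply, conjTranspose_apply] <;>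
    first | linear_combination -h1 | linear_combination -h2 | ring

lemma ent_two {A : Matrix (Fin 2) (Fin 2) ℂ} (h : A.IsHermitian) (h1 : rtr A = 1) {D : ℝ}
    (hD0 : 0 ≤ D) (hD : A.det = D) : ent A = eps (2 * √D) := by
  have e1 : h.eigenvalues 0 + h.eigenvalues 1 = 1 := by
    rw [rtr, h.trace_eq_sum_eigenvalues] at h1
    simpa using h1
  have e2 : h.eigenvalues 0 * h.eigenvalues 1 = D := by
    rw [h.det_eq_prod_eigenvalues, Fin.prod_univ_two] at hD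
    have := congrArg Complex.re hD
    simpa using this
  rw [ent_herm h, Fin.sum_univ_two, eps, mul_pow, Real.sq_sqrt hD0,
    show 1 - 2 ^ 2 * D = (2 * h.eigenvalues 0 - 1) ^ 2 by
      linear_combination 4 * e2 - 4 * h.eigenvalues 0 * e1,
    Real.sqrt_sq_eq_abs, show h.eigenvalues 1 = 1 - h.eigenvalues 0 by linarith,
    ← Real.binEntropy_eq_negMulLog_add_negMulLog_one_sub]
  rcases abs_cases (2 * h.eigenvalues 0 - 1) with ⟨h', _⟩ | ⟨h', _⟩
  · rw [h']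
    congr 1
    ring
  · rw [h', ← Real.binEntropy_one_sub]
    congr 1
    ring

lemma gad_herm (γ ν : ℝ) {A : Matrix (Fin 2) (Fin 2) ℂ} (h : A.IsHermitian) :
    (gad γ ν A).IsHermitian := by
  ext i j
  fin_cases i <;> fin_cases j <;> simp [gad, conjTranspose_apply, herm_apply h]

lemma gad_rtr (γ ν : ℝ) (A : Matrix (Fin 2) (Fin 2) ℂ) : rtr (gad γ ν A) = rtr A := by
  simp [rtr, gad, trace_fin_two]

lemma ent_gad_psi {γ ν q : ℝ} (hγ : γ ∈ Set.Icc (0 : ℝ) 1) (hν : ν ∈ Set.Icc (0 : ℝ) 1)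
    (hq : q ∈ Set.Icc (0 : ℝ) 1) (s : Fin 2) :
    ent (gad γ ν (psi q s)) = eps (2 * √(Dq γ ν q)) := by
  refine ent_two (gad_herm γ ν (psi_state hq s).1.1)
    (by rw [gad_rtr, rtr_state (psi_state hq s)]) (Dq_nonneg hγ hν q) ?_
  have h1 : ((√q : ℝ) : ℂ) ^ 2 = q := by exact_mod_cast Real.sq_sqrt hq.1
  have h2 : ((√(1 - q) : ℝ) : ℂ) ^ 2 = 1 - q := by
    exact_mod_cast Real.sq_sqrt (sub_nonneg.mpr hq.2)
  have h4 : ((√(1 - γ) : ℝ) : ℂ) ^ 2 = 1 - γ := by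
    exact_mod_cast Real.sq_sqrt (sub_nonneg.mpr hγ.2)
  fin_cases s <;> simp [gad, psi, det_fin_two, Dq] <;>
    linear_combination (-((1 - γ) * (1 - q)) : ℂ) * h1 -
      ((1 - γ) * ((√q : ℝ) : ℂ) ^ 2) * h2 - (((√q : ℝ) : ℂ) ^ 2 * ((√(1 - q) : ℝ) : ℂ) ^ 2) * h4

lemma avg_gad_psi (γ ν q : ℝ) :
    ∑ s, (((1 / 2 : ℝ) : ℝ) : ℂ) • gad γ ν (psi q s) = diagonal (fun a =>
      (((![1 - ((1 - γ) * q + γ * ν), (1 - γ) * q + γ * ν] : Fin 2 → ℝ) a : ℝ) : ℂ)) := by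
  ext i j
  fin_cases i <;> fin_cases j <;> simp [gad, psi] <;> ring

lemma ent_avg (γ ν q : ℝ) : ent (∑ s, (((1 / 2 : ℝ) : ℝ) : ℂ) • gad γ ν (psi q s)) =
    Real.binEntropy ((1 - γ) * q + γ * ν) := by
  rw [avg_gad_psi, ent_diagonal, Real.binEntropy_eq_negMulLog_add_negMulLog_one_sub,
    Fin.sum_univ_two, add_comm]
  simp

lemma avg_herm (γ ν q : ℝ) :
    (∑ s, (((1 / 2 : ℝ) : ℝ) : ℂ) • gad γ ν (psi q s)).IsHermitian := by
  rw [avg_gad_psi]
  exact dg_herm _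

lemma lower_one {γ ν q : ℝ} (hγ : γ ∈ Set.Icc (0 : ℝ) 1) (hν : ν ∈ Set.Icc (0 : ℝ) 1)
    (hq : q ∈ Set.Icc (0 : ℝ) 1) : gadValue γ ν q ∈ holevoValues (gad γ ν) := by
  refine ⟨2, fun _ => 1 / 2, psi q, fun _ => by norm_num, by simp, psi_state hq, ?_⟩
  rw [vn_eq (avg_herm γ ν q), ent_avg, gadValue_eq hγ hν, gv]
  simp only [vn_eq (gad_herm γ ν (psi_state hq _).1.1), ent_gad_psi hγ hν hq, Fin.sum_univ_two]
  ring

lemma tp_pm (γ ν : ℝ) {n : ℕ} (A : Fin n → Matrix (Fin 2) (Fin 2) ℂ) :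
    tensorPow (gad γ ν) n (pm A) = pm (fun i => gad γ ν (A i)) := by
  ext x y
  simp only [tensorPow, pm, of_apply, ← Finset.prod_mul_distrib]
  have h1 : ∀ x' : Fin n → Fin 2,
      ∑ y' : Fin n → Fin 2, ∏ i, gad γ ν (single (x' i) (y' i) 1) (x i) (y i) * A i (x' i) (y' i) =
        ∏ i, ∑ b, gad γ ν (single (x' i) b 1) (x i) (y i) * A i (x' i) b := fun x' =>
    sum_prod (fun i b => gad γ ν (single (x' i) b 1) (x i) (y i) * A i (x' i) b)
  simp only [h1]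
  rw [sum_prod (fun i a => ∑ b, gad γ ν (single a b 1) (x i) (y i) * A i a b)]
  refine Finset.prod_congr rfl fun i _ => ?_
  generalize x i = a
  generalize y i = b
  fin_cases a <;> fin_cases b <;> simp [gad] <;> ring

lemma pm_herm {n : ℕ} {A : Fin n → Matrix (Fin 2) (Fin 2) ℂ} (h : ∀ i, (A i).IsHermitian) :
    (pm A).IsHermitian := by
  unfold IsHermitian
  rw [pm_star]
  congr 1
  ext1 i
  exact (h i).eq

lemma lower {γ ν q : ℝ} (hγ : γ ∈ Set.Icc (0 : ℝ) 1) (hν : ν ∈ Set.Icc (0 : ℝ) 1)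
    (hq : q ∈ Set.Icc (0 : ℝ) 1) (n : ℕ) :
    n * gadValue γ ν q ∈ holevoValues (tensorPow (gad γ ν) n) := by
  let e := (Fintype.equivFin (Fin n → Fin 2)).symm
  have hs : ∑ _s : Fin n → Fin 2, (1 / 2 : ℝ) ^ n = 1 := by simp
  refine ⟨_, fun _ => (1 / 2) ^ n, fun a => pm (fun i => psi q (e a i)), fun _ => by positivity,
    ?_, fun a => ⟨pm_psd fun i => (psi_state hq _).1, ?_⟩, ?_⟩
  · rw [e.sum_comp (fun _ => (1 / 2 : ℝ) ^ n), hs]
  · rw [pm_trace]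
    exact Finset.prod_eq_one fun i _ => (psi_state hq _).2
  have hh : ∀ s, (gad γ ν (psi q s)).IsHermitian := fun s => gad_herm γ ν (psi_state hq s).1.1
  have h1 : ∀ s : Fin n → Fin 2, vnEntropy (pm fun i => gad γ ν (psi q (s i))) =
      n * eps (2 * √(Dq γ ν q)) / Real.log 2 := by
    intro s
    rw [vn_eq (pm_herm fun i => hh _), ent_pm (fun i => hh _)
      (fun i => by rw [gad_rtr, rtr_state (psi_state hq _)])]
    simp [ent_gad_psi hγ hν hq]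
  have h2 : ∑ s : Fin n → Fin 2, (((1 / 2 : ℝ) ^ n : ℝ) : ℂ) • (pm fun i => gad γ ν (psi q (s i))) =
      pm (fun _ => ∑ s, (((1 / 2 : ℝ) : ℝ) : ℂ) • gad γ ν (psi q s)) := by
    ext x y
    simp only [pm, Matrix.sum_apply, Matrix.smul_apply, of_apply, smul_eq_mul]
    rw [← sum_prod (fun i s => (((1 / 2 : ℝ) : ℝ) : ℂ) * gad γ ν (psi q s) (x i) (y i))]
    simp [Finset.prod_mul_distrib]
  simp only [tp_pm, h1]
  rw [e.sum_comp (fun s => (((1 / 2 : ℝ) ^ n : ℝ) : ℂ) • (pm fun i => gad γ ν (psi q (s i)))), h2,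
    ← Finset.sum_mul, e.sum_comp (fun _ => (1 / 2 : ℝ) ^ n), hs,
    vn_eq (pm_herm fun i => avg_herm γ ν q), ent_pm (fun i => avg_herm γ ν q) (fun i => by
      rw [avg_gad_psi]
      simp [rtr]), gadValue_eq hγ hν, gv]
  simp only [ent_avg, Finset.sum_const, Finset.card_univ, Fintype.card_fin, nsmul_eq_mul]
  ring

lemma vn_submatrix {I J : Type} [Fintype I] [DecidableEq I] [Fintype J] [DecidableEq J]
    (e : J ≃ I) {A : Matrix I I ℂ} (h : A.IsHermitian) :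
    vnEntropy (A.submatrix e e) = vnEntropy A := by
  rw [vn_eq h, vn_eq (h.submatrix e), ent_submatrix]

lemma one_sub (γ ν : ℝ) {v : ℝ} (hv : v ∈ holevoValues (gad γ ν)) :
    v ∈ holevoValues (tensorPow (gad γ ν) 1) := by
  obtain ⟨m, p, ρ, hp, h1, hρ, rfl⟩ := hv
  let e : (Fin 1 → Fin 2) ≃ Fin 2 := Equiv.funUnique _ _
  have hpm : ∀ A : Matrix (Fin 2) (Fin 2) ℂ, pm (fun _ : Fin 1 => A) = A.submatrix e e := by
    intro A
    ext x y
    simp [pm, e]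
  have hh : ∀ a, (gad γ ν (ρ a)).IsHermitian := fun a => gad_herm γ ν (hρ a).1.1
  refine ⟨m, p, fun a => pm (fun _ => ρ a), hp, h1,
    fun a => ⟨pm_psd fun _ => (hρ a).1, by rw [pm_trace]; simp [(hρ a).2]⟩, ?_⟩
  simp only [tp_pm]
  simp only [hpm, vn_submatrix e (hh _)]
  have h2 : (∑ a, (p a : ℂ) • gad γ ν (ρ a)).IsHermitian := by
    unfold IsHermitian
    simp [conjTranspose_sum, (hh _).eq]
  rw [← vn_submatrix e h2]
  congr 2
  ext x y
  simp [Matrix.sum_apply]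

theorem main {γ ν : ℝ} (hγ : γ ∈ Set.Icc (0 : ℝ) 1) (hν : ν ∈ Set.Icc (0 : ℝ) 1) :
    ∃ M : ℝ, IsGreatest (gadValue γ ν '' Set.Icc 0 1) M ∧ IsGreatest (holevoValues (gad γ ν)) M ∧
      ∀ n : ℕ, IsGreatest (holevoValues (tensorPow (gad γ ν) n)) (n * M) := by
  obtain ⟨q, hq, hmax⟩ := (isCompact_Icc (a := (0 : ℝ)) (b := 1)).exists_isMaxOn
    ⟨0, by simp⟩ (gadValue_cont γ ν).continuousOn
  have hM : ∀ q' ∈ Set.Icc (0 : ℝ) 1, gadValue γ ν q' ≤ gadValue γ ν q := fun q' h => hmax h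
  refine ⟨gadValue γ ν q, ⟨⟨q, hq, rfl⟩, ?_⟩, ⟨lower_one hγ hν hq, fun v hv => ?_⟩,
    fun n => ⟨lower hγ hν hq n, fun v hv => upper hγ hν hM n hv⟩⟩
  · rintro _ ⟨q', h, rfl⟩
    exact hM q' h
  · simpa using upper hγ hν hM 1 (one_sub γ ν hv)

end Vale.Agent.P358
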