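import Vale.Agent.P358.Key

open scoped ComplexOrder Matrix MatrixOrder
open Matrix Filter Topology

namespace Vale.Agent.P358

open Vale.Agent.P350

variable {J : Type} [Fintype J] [DecidableEq J]

/-- contraction of a block matrix against a two by two matrix -/
noncomputable def Gm (P W R : Matrix J J ℂ) (z : ℂ) (s : ℝ) : Matrix J J ℂ :=
  P + z • Wᴴ + star z • W + (s : ℂ) • R

/-- a linear lower bound for the entropy of all contractions -/
def Good (P W R : Matrix J J ℂ) (x : ℝ) (y : ℂ) (r : ℝ) : Prop :=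
  r ≤ E R ∧ ∀ (z : ℂ) (s : ℝ), Complex.normSq z ≤ s →
    x + 2 * (star z * y).re + s * r ≤ E (Gm P W R z s)

/-- output of an amplitude damping map -/
noncomputable def om (P W R : Matrix J J ℂ) (β δ : ℝ) : Matrix (J ⊕ J) (J ⊕ J) ℂ :=
  fromBlocks (P + ((β ^ 2 : ℝ) : ℂ) • R) ((δ : ℂ) • W) ((δ : ℂ) • Wᴴ) (((δ ^ 2 : ℝ) : ℂ) • R)

omit [Fintype J] [DecidableEq J] in
lemma psd_tl {P W W' R : Matrix J J ℂ} (h : (fromBlocks P W W' R).PosSemidef) : P.PosSemidef :=
  h.submatrix Sum.inl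

omit [Fintype J] [DecidableEq J] in
lemma psd_br {P W W' R : Matrix J J ℂ} (h : (fromBlocks P W W' R).PosSemidef) : R.PosSemidef :=
  h.submatrix Sum.inr

omit [Fintype J] [DecidableEq J] in
lemma herm_apply {R : Matrix J J ℂ} (h : R.IsHermitian) (i j : J) :
    (starRingEnd ℂ) (R j i) = R i j := h.apply i j

lemma psd_shift {P W R : Matrix J J ℂ} (h : (fromBlocks P W Wᴴ R).PosSemidef) (v : ℂ) :
    (fromBlocks (Gm P W R v (Complex.normSq v)) (W + v • R) (W + v • R)ᴴ R).PosSemidef := by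
  have hR := (psd_br h).1
  have := h.mul_mul_conjTranspose_same (fromBlocks (1 : Matrix J J ℂ) (v • 1) 0 (1 : Matrix J J ℂ))
  convert this using 1
  rw [fromBlocks_conjTranspose, fromBlocks_multiply, fromBlocks_multiply]
  simp only [conjTranspose_one, conjTranspose_zero, conjTranspose_smul, Matrix.one_mul,
    Matrix.mul_one, Matrix.zero_mul, Matrix.mul_zero, Matrix.smul_mul, Matrix.mul_smul,
    conjTranspose_add, hR.eq, zero_add, Gm]
  congr 1
  rw [Complex.normSq_eq_conj_mul_self]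
  simp only [smul_add, smul_smul, Complex.star_def]
  abel

lemma psd_om {P W R : Matrix J J ℂ} (h : (fromBlocks P W Wᴴ R).PosSemidef) (β δ : ℝ) :
    (om P W R β δ).PosSemidef := by
  have h1 := h.mul_mul_conjTranspose_same
    (fromBlocks (1 : Matrix J J ℂ) 0 0 ((δ : ℂ) • (1 : Matrix J J ℂ)))
  have h2 := h.mul_mul_conjTranspose_same
    (fromBlocks (0 : Matrix J J ℂ) ((β : ℂ) • 1) 0 (0 : Matrix J J ℂ))
  convert h1.add h2 using 1
  rw [fromBlocks_conjTranspose, fromBlocks_conjTranspose, fromBlocks_multiply,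
    fromBlocks_multiply, fromBlocks_multiply, fromBlocks_multiply, fromBlocks_add]
  simp only [om, conjTranspose_one, conjTranspose_zero, conjTranspose_smul, Matrix.one_mul,
    Matrix.mul_one, Matrix.zero_mul, Matrix.mul_zero, Matrix.smul_mul, Matrix.mul_smul,
    zero_add, add_zero, smul_zero, smul_smul, Complex.star_def, Complex.conj_ofReal, pow_two,
    Complex.ofReal_mul]

lemma good_shift {P W R : Matrix J J ℂ} (hR : R.IsHermitian) {x r : ℝ} {y : ℂ}
    (h : Good P W R x y r) (v : ℂ) :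
    Good (Gm P W R v (Complex.normSq v)) (W + v • R) R
      (x + 2 * (star v * y).re + Complex.normSq v * r) (y + v * r) r := by
  refine ⟨h.1, fun z s hs => ?_⟩
  have h1 := h.2 (v + z) (s + Complex.normSq v + 2 * (star z * v).re) (by
    rw [Complex.normSq_add]
    simp only [Complex.star_def, Complex.mul_re, Complex.conj_re, Complex.conj_im]
    linarith)
  have e : Gm (Gm P W R v (Complex.normSq v)) (W + v • R) R z s =
      Gm P W R (v + z) (s + Complex.normSq v + 2 * (star z * v).re) := by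
    have e2 : (((s + Complex.normSq v + 2 * (star z * v).re : ℝ)) : ℂ) =
        s + Complex.normSq v + (star z * v + z * star v) := by
      apply Complex.ext <;> simp <;> ring
    unfold Gm
    rw [e2, conjTranspose_add, conjTranspose_smul, hR.eq, star_add]
    simp only [smul_add, add_smul, smul_smul]
    abel
  rw [e]
  refine le_trans (le_of_eq ?_) h1
  simp only [Complex.star_def, map_add, Complex.mul_re, Complex.conj_re, Complex.conj_im,
    Complex.add_re, Complex.add_im, Complex.mul_im, Complex.ofReal_re, Complex.ofReal_im]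
  ring

omit [DecidableEq J] in
lemma rtr_fromBlocks (A B C D : Matrix J J ℂ) : rtr (fromBlocks A B C D) = rtr A + rtr D := by
  simp [rtr, trace, Fintype.sum_sum_type]

omit [DecidableEq J] in
lemma rtr_csmul (s : ℝ) (A : Matrix J J ℂ) : rtr ((s : ℂ) • A) = s * rtr A := by
  simp [rtr]

omit [DecidableEq J] in
lemma rtr_om (P W R : Matrix J J ℂ) (β δ : ℝ) :
    rtr (om P W R β δ) = rtr P + (β ^ 2 + δ ^ 2) * rtr R := by
  rw [om, rtr_fromBlocks, rtr_add, rtr_csmul, rtr_csmul]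
  ring

omit [DecidableEq J] in
lemma rtr_Gm (P W R : Matrix J J ℂ) (z : ℂ) (s : ℝ) :
    rtr (Gm P W R z s) = rtr P + 2 * (star z * trace W).re + s * rtr R := by
  unfold Gm
  rw [rtr_add, rtr_add, rtr_add, rtr_csmul]
  simp [rtr, trace_conjTranspose]
  ring

omit [Fintype J] [DecidableEq J] in
lemma csmul_eq (s : ℝ) (A : Matrix J J ℂ) : (s : ℂ) • A = s • A := by
  ext i j
  simp

lemma om_base {P W R : Matrix J J ℂ} (h : (fromBlocks P W Wᴴ R).PosSemidef) {x r : ℝ} {y : ℂ}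
    (hG : Good P W R x y r) (β δ : ℝ) : x + (β ^ 2 + δ ^ 2) * r ≤ E (om P W R β δ) := by
  have h1 := E_blocks (psd_om h β δ)
  have h2 := hG.2 0 (β ^ 2) (by simp; positivity)
  have h3 : E (((δ ^ 2 : ℝ) : ℂ) • R) = δ ^ 2 * E R := by rw [csmul_eq, E_smul _ (psd_br h).1]
  have h4 := mul_le_mul_of_nonneg_left hG.1 (sq_nonneg δ)
  simp only [Gm, star_zero, zero_smul, add_zero, zero_mul, Complex.zero_re, mul_zero] at h2
  unfold om
  linarith

/-- the observable measured weakly on the output qubit -/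
noncomputable def Yu (J : Type) [DecidableEq J] (u : ℂ) : Matrix (J ⊕ J) (J ⊕ J) ℂ :=
  fromBlocks 0 (u • 1) (star u • 1) 0

/-- the perturbation produced by a weak measurement of the environment qubit -/
noncomputable def Bu (W R : Matrix J J ℂ) (β δ : ℝ) (u : ℂ) : Matrix (J ⊕ J) (J ⊕ J) ℂ :=
  fromBlocks ((β : ℂ) • (u • Wᴴ + star u • W)) (((β * δ : ℝ) : ℂ) • u • R)
    (((β * δ : ℝ) : ℂ) • star u • R) 0

omit [Fintype J] in
lemma Yu_neg (u : ℂ) : Yu J (-u) = -Yu J u := by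
  simp [Yu, fromBlocks_neg]

omit [Fintype J] [DecidableEq J] in
lemma Bu_neg (W R : Matrix J J ℂ) (β δ : ℝ) (u : ℂ) : Bu W R β δ (-u) = -Bu W R β δ u := by
  simp only [Bu, fromBlocks_neg, star_neg, neg_smul, smul_neg, neg_zero, ← neg_add]

lemma KK {u : ℂ} (hu : Complex.normSq u = 1) {ε ρ : ℝ} (h : ε ^ 2 + ρ ^ 2 = 1) :
    (fromBlocks (1 : Matrix J J ℂ) ((ε * u) • 1) 0 ((ρ : ℂ) • 1))ᴴ *
      fromBlocks (1 : Matrix J J ℂ) ((ε * u) • 1) 0 ((ρ : ℂ) • 1) = 1 + ε • Yu J u := by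
  have h1 : (starRingEnd ℂ) u * u = 1 := by
    rw [← Complex.normSq_eq_conj_mul_self, hu, Complex.ofReal_one]
  have h2 : (ε : ℂ) ^ 2 + (ρ : ℂ) ^ 2 = 1 := by exact_mod_cast h
  rw [fromBlocks_conjTranspose, fromBlocks_multiply, ← fromBlocks_one, Yu, fromBlocks_smul,
    fromBlocks_add]
  simp only [conjTranspose_one, conjTranspose_zero, conjTranspose_smul,
    Matrix.mul_one, Matrix.mul_zero, Matrix.mul_smul,
    zero_add, add_zero, smul_zero, ← csmul_eq, smul_smul, star_mul', Complex.star_def,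
    Complex.conj_ofReal, ← add_smul]
  congr 1
  rw [show (ε : ℂ) * u * (ε * (starRingEnd ℂ) u) + ρ * ρ = 1 by
    linear_combination (ε : ℂ) ^ 2 * h1 + h2, one_smul]

lemma Bstep {P W R : Matrix J J ℂ} (hM : (fromBlocks P W Wᴴ R).PosSemidef) (β δ : ℝ) {u : ℂ}
    (hu : Complex.normSq u = 1) {ε ρ : ℝ} (h : ε ^ 2 + ρ ^ 2 = 1) :
    ent (fc Real.sqrt (om P W R β δ) * (1 + ε • Yu J u) * fc Real.sqrt (om P W R β δ)) =
      ent (om (Gm P W R (ε * δ * u) (Complex.normSq (ε * δ * u))) (W + (ε * δ * u) • R) R β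
        (ρ * δ)) := by
  have hw := psd_om hM β δ
  have hR := (psd_br hM).1
  have hWW : fc Real.sqrt (om P W R β δ) * fc Real.sqrt (om P W R β δ) = om P W R β δ := by
    rw [fc_mul]
    conv_rhs => rw [← fc_id hw.1]
    exact fc_congr fun i => Real.mul_self_sqrt (sd_nonneg hw i)
  rw [← KK hu h, ← Matrix.mul_assoc, Matrix.mul_assoc, ent_mul_comm, Matrix.mul_assoc,
    ← Matrix.mul_assoc (fc _ _), hWW, ← Matrix.mul_assoc]
  congr 1
  rw [fromBlocks_conjTranspose, om, fromBlocks_multiply, fromBlocks_multiply, om, Gm,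
    Complex.normSq_eq_conj_mul_self]
  simp only [conjTranspose_one, conjTranspose_zero, conjTranspose_smul, Matrix.one_mul,
    Matrix.mul_one, Matrix.zero_mul, Matrix.mul_zero, Matrix.smul_mul, Matrix.mul_smul,
    zero_add, smul_zero, conjTranspose_add, hR.eq, star_mul', Complex.star_def,
    Complex.conj_ofReal, map_mul]
  congr 1
  · push_cast; module
  · push_cast; module
  · push_cast; module
  · push_cast; module

omit [Fintype J] [DecidableEq J] in
lemma Estep {P W R : Matrix J J ℂ} (hR : R.IsHermitian) (β δ : ℝ) {u : ℂ}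
    (hu : Complex.normSq u = 1) {ε ρ : ℝ} (h : ε ^ 2 + ρ ^ 2 = 1) :
    om P W R β δ + ε • Bu W R β δ u =
      om (Gm P W R (ε * β * u) (Complex.normSq (ε * β * u))) (W + (ε * β * u) • R) R (ρ * β) δ := by
  have e : Complex.normSq (ε * β * u) = β ^ 2 - (ρ * β) ^ 2 := by
    rw [map_mul, map_mul, hu, Complex.normSq_ofReal, Complex.normSq_ofReal]
    linear_combination β ^ 2 * h
  rw [e, om, om, Bu, Gm, fromBlocks_smul, fromBlocks_add]
  simp only [conjTranspose_add, conjTranspose_smul, hR.eq, star_mul', Complex.star_def,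
    Complex.conj_ofReal, ← csmul_eq, smul_zero, add_zero]
  congr 1
  · push_cast; module
  · push_cast; module
  · push_cast; module

lemma step {P W R : Matrix J J ℂ} (hM : (fromBlocks P W Wᴴ R).PosSemidef) {β δ : ℝ}
    (htr : rtr (om P W R β δ) = 1) (hc : 0 < 2 * β * δ * rtr R) {u : ℂ}
    (hu : Complex.normSq u = 1) {ε ρ : ℝ} (h0 : 0 ≤ ε) (h : ε ^ 2 + ρ ^ 2 = 1) :
    ent (om (Gm P W R (ε * δ * u) (Complex.normSq (ε * δ * u))) (W + (ε * δ * u) • R) R β
        (ρ * δ)) +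
      ent (om (Gm P W R (ε * δ * -u) (Complex.normSq (ε * δ * -u))) (W + (ε * δ * -u) • R) R β
        (ρ * δ)) +
      ent (om (Gm P W R (ε * β * u) (Complex.normSq (ε * β * u))) (W + (ε * β * u) • R) R
        (ρ * β) δ) +
      ent (om (Gm P W R (ε * β * -u) (Complex.normSq (ε * β * -u))) (W + (ε * β * -u) • R) R
        (ρ * β) δ) +
      2 * ε ^ 2 * ((2 * β * δ * rtr R) * F (1 / (2 * β * δ * rtr R))) ≤ 4 * ent (om P W R β δ) := by
  have hR := (psd_br hM).1
  have hu' : Complex.normSq (-u) = 1 := by rw [Complex.normSq_neg, hu]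
  have h10 : (1 : ℝ) ^ 2 + 0 ^ 2 = 1 := by norm_num
  have h1 : (starRingEnd ℂ) u * u = 1 := by
    rw [← Complex.normSq_eq_conj_mul_self, hu, Complex.ofReal_one]
  have hY : ∀ {v : ℂ}, Complex.normSq v = 1 → (1 + Yu J v).PosSemidef := by
    intro v hv
    have := KK (J := J) hv h10
    rw [one_smul] at this
    rw [← this]
    exact posSemidef_conjTranspose_mul_self _
  have hB : ∀ {v : ℂ}, Complex.normSq v = 1 → (om P W R β δ + Bu W R β δ v).PosSemidef := by
    intro v hv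
    have := Estep (P := P) (W := W) hR β δ hv h10
    rw [one_smul] at this
    rw [this]
    exact psd_om (psd_shift hM _) _ _
  have hYh : (Yu J u).IsHermitian := by
    unfold IsHermitian Yu
    simp [fromBlocks_conjTranspose]
  have hBh : (Bu W R β δ u).IsHermitian := by
    unfold IsHermitian Bu
    simp only [fromBlocks_conjTranspose, conjTranspose_smul, conjTranspose_add, hR.eq,
      conjTranspose_conjTranspose, conjTranspose_zero, Complex.star_def,
      Complex.conj_ofReal, Complex.conj_conj, add_comm]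
  have hcB : rtr (Yu J u * Bu W R β δ u) = 2 * β * δ * rtr R := by
    rw [Yu, Bu, fromBlocks_multiply, rtr_fromBlocks]
    simp only [Matrix.zero_mul, Matrix.mul_zero, Matrix.smul_mul, Matrix.one_mul, zero_add,
      add_zero, smul_smul, Complex.star_def]
    rw [show u * (((β * δ : ℝ) : ℂ) * (starRingEnd ℂ) u) = ((β * δ : ℝ) : ℂ) by
        linear_combination ((β * δ : ℝ) : ℂ) * h1,
      show (starRingEnd ℂ) u * (((β * δ : ℝ) : ℂ) * u) = ((β * δ : ℝ) : ℂ) by
        linear_combination ((β * δ : ℝ) : ℂ) * h1, rtr_csmul]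
    ring
  have hε1 : ε ≤ 1 := by nlinarith [sq_nonneg ρ]
  have k := key (psd_om hM β δ) htr hYh (hY hu)
    (by rw [sub_eq_add_neg, ← Yu_neg]; exact hY hu') hBh (hB hu)
    (by rw [sub_eq_add_neg, ← Bu_neg]; exact hB hu') hc hcB h0 hε1
  rw [sub_eq_add_neg, sub_eq_add_neg, ← smul_neg, ← smul_neg, ← Yu_neg, ← Bu_neg,
    Bstep hM β δ hu h, Bstep hM β δ hu' h, Estep hR β δ hu h, Estep hR β δ hu' h] at k
  exact k

lemma exists_unit (w : ℂ) : ∃ u : ℂ, Complex.normSq u = 1 ∧ (star u * w).re = 0 := by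
  by_cases h : w = 0
  · exact ⟨1, by simp, by simp [h]⟩
  · have hn : 0 < ‖w‖ := norm_pos_iff.mpr h
    refine ⟨Complex.I * w / ‖w‖, ?_, ?_⟩
    · rw [map_div₀, map_mul, Complex.normSq_I, Complex.normSq_ofReal, one_mul,
        Complex.normSq_eq_norm_sq]
      field_simp
    · simp only [Complex.star_def, map_div₀, map_mul, Complex.conj_I, Complex.conj_ofReal]
      rw [div_mul_eq_mul_div, Complex.div_ofReal_re, mul_assoc, Complex.conj_mul']
      simp [← Complex.ofReal_pow]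

lemma iter {ε ρ : ℝ} (h0 : 0 ≤ ε) (hρ : 0 ≤ ρ) (h : ε ^ 2 + ρ ^ 2 = 1) (k : ℕ) :
    ∀ (P W R : Matrix J J ℂ) (x : ℝ) (y : ℂ) (r β δ : ℝ), (fromBlocks P W Wᴴ R).PosSemidef →
      Good P W R x y r → 0 ≤ β → 0 ≤ δ → rtr P + (β ^ 2 + δ ^ 2) * rtr R = 1 →
      x + (β ^ 2 + δ ^ 2) * r + (1 + ρ) / 2 *
        (eps (2 * β * δ * rtr R) - eps (ρ ^ k * (2 * β * δ * rtr R))) ≤ ent (om P W R β δ) := by
  induction k with
  | zero =>
    intro P W R x y r β δ hM hG _ _ htr
    have := om_base hM hG β δ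
    rw [E_of_rtr (by rw [rtr_om, htr])] at this
    simpa using this
  | succ k ih =>
    intro P W R x y r β δ hM hG hβ hδ htr
    have hR := psd_br hM
    have hP := rtr_nonneg (psd_tl hM)
    have hRt := rtr_nonneg hR
    have hc0 : 0 ≤ 2 * β * δ * rtr R := by positivity
    rcases hc0.eq_or_lt with hc | hc
    · have := om_base hM hG β δ
      rw [E_of_rtr (by rw [rtr_om, htr])] at this
      rw [← hc]
      simpa using this
    obtain ⟨u, hu, huW⟩ := exists_unit (trace W)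
    have hs := step hM (by rw [rtr_om, htr]) hc hu h0 h
    have hn : ∀ (a : ℝ) (v : ℂ), Complex.normSq v = 1 →
        Complex.normSq (ε * a * v) = ε ^ 2 * a ^ 2 := by
      intro a v hv
      rw [map_mul, map_mul, hv, Complex.normSq_ofReal, Complex.normSq_ofReal]
      ring
    have hz : ∀ (a : ℝ) (v w : ℂ), (star ((ε : ℂ) * a * v) * w).re = ε * a * (star v * w).re := by
      intro a v w
      simp only [star_mul', Complex.star_def, Complex.conj_ofReal]
      rw [mul_assoc, ← Complex.ofReal_mul, Complex.re_ofReal_mul]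
    have hu' : Complex.normSq (-u) = 1 := by rw [Complex.normSq_neg, hu]
    have huW' : (star (-u) * trace W).re = 0 := by
      rw [star_neg, neg_mul, Complex.neg_re, huW, neg_zero]
    have iB : ∀ v : ℂ, Complex.normSq v = 1 → (star v * trace W).re = 0 →
        x + 2 * (ε * δ * (star v * y).re) + (β ^ 2 + δ ^ 2) * r + (1 + ρ) / 2 *
          (eps (ρ * (2 * β * δ * rtr R)) - eps (ρ ^ (k + 1) * (2 * β * δ * rtr R))) ≤
        ent (om (Gm P W R (ε * δ * v) (Complex.normSq (ε * δ * v))) (W + (ε * δ * v) • R) R β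
          (ρ * δ)) := by
      intro v hv hvW
      have := ih _ _ _ _ _ _ β (ρ * δ) (psd_shift hM (ε * δ * v)) (good_shift hR.1 hG _) hβ
        (by positivity) (by
          rw [rtr_Gm, hz, hvW, hn δ v hv]
          linear_combination htr + δ ^ 2 * rtr R * h)
      rw [show 2 * β * (ρ * δ) * rtr R = ρ * (2 * β * δ * rtr R) by ring, ← mul_assoc (ρ ^ k),
        ← pow_succ] at this
      refine le_trans (le_of_eq ?_) this
      rw [hz, hn δ v hv]
      linear_combination (-(δ ^ 2 * r)) * h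
    have iE : ∀ v : ℂ, Complex.normSq v = 1 → (star v * trace W).re = 0 →
        x + 2 * (ε * β * (star v * y).re) + (β ^ 2 + δ ^ 2) * r + (1 + ρ) / 2 *
          (eps (ρ * (2 * β * δ * rtr R)) - eps (ρ ^ (k + 1) * (2 * β * δ * rtr R))) ≤
        ent (om (Gm P W R (ε * β * v) (Complex.normSq (ε * β * v))) (W + (ε * β * v) • R) R
          (ρ * β) δ) := by
      intro v hv hvW
      have := ih _ _ _ _ _ _ (ρ * β) δ (psd_shift hM (ε * β * v)) (good_shift hR.1 hG _)
        (by positivity) hδ (by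
          rw [rtr_Gm, hz, hvW, hn β v hv]
          linear_combination htr + β ^ 2 * rtr R * h)
      rw [show 2 * (ρ * β) * δ * rtr R = ρ * (2 * β * δ * rtr R) by ring, ← mul_assoc (ρ ^ k),
        ← pow_succ] at this
      refine le_trans (le_of_eq ?_) this
      rw [hz, hn β v hv]
      linear_combination (-(β ^ 2 * r)) * h
    have i1 := iB u hu huW
    have i2 := iB (-u) hu' huW'
    have i3 := iE u hu huW
    have i4 := iE (-u) hu' huW'
    rw [star_neg, neg_mul, Complex.neg_re] at i2 i4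
    set c := 2 * β * δ * rtr R with hcdef
    have hc1 : c ≤ 1 := by nlinarith [mul_nonneg (sq_nonneg (β - δ)) hRt]
    have hρ1 : ρ ≤ 1 := by nlinarith [sq_nonneg ε]
    have ht := eps_tangent hc hc1 (c' := ρ * c) (by positivity) (by nlinarith)
    have ht2 := mul_le_mul_of_nonneg_left ht (show 0 ≤ 1 + ρ by positivity)
    have e : ε ^ 2 = (1 + ρ) * (1 - ρ) := by linear_combination h
    rw [e] at hs
    nlinarith

lemma adc_norm {P W R : Matrix J J ℂ} {x : ℝ} {y : ℂ} {r β δ : ℝ}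
    (hM : (fromBlocks P W Wᴴ R).PosSemidef) (hG : Good P W R x y r) (hβ : 0 ≤ β) (hδ : 0 ≤ δ)
    (htr : rtr P + (β ^ 2 + δ ^ 2) * rtr R = 1) :
    x + (β ^ 2 + δ ^ 2) * r + eps (2 * β * δ * rtr R) ≤ ent (om P W R β δ) := by
  set c := 2 * β * δ * rtr R with hc
  have h1 : ∀ ρ : ℝ, 0 ≤ ρ → ρ < 1 →
      x + (β ^ 2 + δ ^ 2) * r + (1 + ρ) / 2 * (eps c - eps 0) ≤ ent (om P W R β δ) := by
    intro ρ h0 h1
    have hp : 0 ≤ 1 - ρ ^ 2 := by nlinarith
    have ht : Tendsto (fun k : ℕ => x + (β ^ 2 + δ ^ 2) * r + (1 + ρ) / 2 *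
        (eps c - eps (ρ ^ k * c))) atTop
        (𝓝 (x + (β ^ 2 + δ ^ 2) * r + (1 + ρ) / 2 * (eps c - eps (0 * c)))) :=
      ((((eps_continuous.tendsto _).comp ((tendsto_pow_atTop_nhds_zero_of_lt_one h0 h1).mul_const
        c)).const_sub _).const_mul _).const_add _
    rw [zero_mul] at ht
    exact le_of_tendsto' ht fun k => iter (ε := √(1 - ρ ^ 2)) (Real.sqrt_nonneg _) h0
      (by rw [Real.sq_sqrt hp]; ring) k P W R x y r β δ hM hG hβ hδ htr
  have ht : Tendsto (fun ρ : ℝ => x + (β ^ 2 + δ ^ 2) * r + (1 + ρ) / 2 * (eps c - eps 0))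
      (𝓝[<] 1) (𝓝 (x + (β ^ 2 + δ ^ 2) * r + (1 + 1) / 2 * (eps c - eps 0))) := by
    refine tendsto_nhdsWithin_of_tendsto_nhds (Continuous.tendsto ?_ _)
    fun_prop
  have h2 := le_of_tendsto ht (by
    filter_upwards [Ioo_mem_nhdsLT (show (0 : ℝ) < 1 by norm_num)] with ρ hρ
    exact h1 ρ hρ.1.le hρ.2)
  rw [eps_zero] at h2
  linarith

omit [Fintype J] [DecidableEq J] in
lemma Gm_herm {P W R : Matrix J J ℂ} (hP : P.IsHermitian) (hR : R.IsHermitian) (z : ℂ) (s : ℝ) :
    (Gm P W R z s).IsHermitian := by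
  unfold IsHermitian Gm
  simp only [conjTranspose_add, conjTranspose_smul, hP.eq, hR.eq, conjTranspose_conjTranspose,
    Complex.star_def, Complex.conj_ofReal, Complex.conj_conj]
  abel

lemma adc {P W R : Matrix J J ℂ} {x : ℝ} {y : ℂ} {r β δ : ℝ}
    (hM : (fromBlocks P W Wᴴ R).PosSemidef) (hG : Good P W R x y r) (hβ : 0 ≤ β) (hδ : 0 ≤ δ)
    {c0 : ℝ} (hc0 : 0 < c0) (hc1 : c0 ≤ 1) :
    x + (β ^ 2 + δ ^ 2) * r + (eps c0 - F (1 / c0) * c0) * (rtr P + (β ^ 2 + δ ^ 2) * rtr R) +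
      F (1 / c0) * (2 * β * δ * rtr R) ≤ E (om P W R β δ) := by
  have hP := psd_tl hM
  have hR := psd_br hM
  have hPt := rtr_nonneg hP
  have hRt := rtr_nonneg hR
  set τ := rtr P + (β ^ 2 + δ ^ 2) * rtr R with hτ
  have hc : 0 ≤ 2 * β * δ * rtr R := by positivity
  have hcτ : 2 * β * δ * rtr R ≤ τ := by nlinarith [mul_nonneg (sq_nonneg (β - δ)) hRt]
  rcases (hc.trans hcτ).eq_or_lt with h0 | h0
  · have := om_base hM hG β δ
    rw [← h0, show 2 * β * δ * rtr R = 0 by linarith]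
    linarith
  have ht : 0 ≤ τ⁻¹ := by positivity
  have hM' : (fromBlocks (τ⁻¹ • P) (τ⁻¹ • W) (τ⁻¹ • W)ᴴ (τ⁻¹ • R)).PosSemidef := by
    have := hM.smul ht
    rwa [fromBlocks_smul, ← star_trivial τ⁻¹, ← conjTranspose_smul, star_trivial] at this
  have hG' : Good (τ⁻¹ • P) (τ⁻¹ • W) (τ⁻¹ • R) (τ⁻¹ * x) ((τ⁻¹ : ℝ) * y) (τ⁻¹ * r) := by
    refine ⟨?_, fun z s hs => ?_⟩
    · rw [E_smul _ hR.1]
      exact mul_le_mul_of_nonneg_left hG.1 ht
    · have e : Gm (τ⁻¹ • P) (τ⁻¹ • W) (τ⁻¹ • R) z s = τ⁻¹ • Gm P W R z s := by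
        simp only [Gm, conjTranspose_smul, star_trivial, smul_add, smul_comm τ⁻¹]
      rw [e, E_smul _ (Gm_herm hP.1 hR.1 z s)]
      refine le_trans (le_of_eq ?_) (mul_le_mul_of_nonneg_left (hG.2 z s hs) ht)
      rw [mul_left_comm, Complex.re_ofReal_mul]
      ring
  have htr : rtr (τ⁻¹ • P) + (β ^ 2 + δ ^ 2) * rtr (τ⁻¹ • R) = 1 := by
    rw [rtr_smul, rtr_smul]
    field_simp
    rw [hτ]
  have h1 := adc_norm hM' hG' hβ hδ htr
  rw [← E_of_rtr (by rw [rtr_om, htr])] at h1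
  have e : om (τ⁻¹ • P) (τ⁻¹ • W) (τ⁻¹ • R) β δ = τ⁻¹ • om P W R β δ := by
    simp only [om, conjTranspose_smul, star_trivial, smul_add, fromBlocks_smul, smul_comm τ⁻¹]
  rw [e, E_smul _ (psd_om hM β δ).1, rtr_smul] at h1
  have h2 := eps_tangent hc0 hc1 (c' := 2 * β * δ * (τ⁻¹ * rtr R)) (by positivity) (by
    rw [mul_left_comm, ← div_eq_inv_mul, div_le_one h0]
    exact hcτ)
  have h3 := mul_le_mul_of_nonneg_left (h1.trans' (add_le_add_right h2 _)) h0.le
  refine le_trans (le_of_eq ?_) (h3.trans (le_of_eq ?_))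
  · field_simp
    ring
  · field_simp

end Vale.Agent.P358
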