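import Vale.Agent.P358.Gad
import Vale.Agent.P358.Defs

open scoped ComplexOrder Matrix MatrixOrder
open Matrix

namespace Vale.Agent.P358

open Vale.Agent.P350

/-- tensor product of a family of qubit matrices -/
noncomputable def pm {n : ℕ} (A : Fin n → Matrix (Fin 2) (Fin 2) ℂ) :
    Matrix (Fin n → Fin 2) (Fin n → Fin 2) ℂ := Matrix.of fun x y => ∏ i, A i (x i) (y i)

lemma sum_prod {n : ℕ} {α R : Type} [Fintype α] [CommSemiring R] (f : Fin n → α → R) :
    ∑ x : Fin n → α, ∏ i, f i (x i) = ∏ i, ∑ a, f i a := by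
  rw [Finset.prod_univ_sum, Fintype.piFinset_univ]

lemma expect_coord {n : ℕ} {α : Type} [Fintype α] (p : Fin n → α → ℝ) (hp : ∀ j, ∑ a, p j a = 1)
    (i : Fin n) (g : α → ℝ) :
    ∑ x : Fin n → α, (∏ j, p j (x j)) * g (x i) = ∑ a, p i a * g a := by
  have h := sum_prod (fun j a => p j a * if j = i then g a else 1)
  simp only [Finset.prod_mul_distrib, Finset.prod_ite_eq', Finset.mem_univ, if_true] at h
  rw [h, Finset.prod_eq_single i]
  · simp
  · intro j _ hj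
    simp [hj, hp j]
  · simp

lemma pm_mul {n : ℕ} (A B : Fin n → Matrix (Fin 2) (Fin 2) ℂ) :
    pm A * pm B = pm (fun i => A i * B i) := by
  ext x y
  simp only [pm, Matrix.mul_apply, of_apply, ← Finset.prod_mul_distrib]
  exact sum_prod (fun i a => A i (x i) a * B i a (y i))

lemma pm_star {n : ℕ} (A : Fin n → Matrix (Fin 2) (Fin 2) ℂ) :
    (pm A)ᴴ = pm (fun i => (A i)ᴴ) := by
  ext x y
  simp [pm, conjTranspose_apply]

lemma pm_diagonal {n : ℕ} (d : Fin n → Fin 2 → ℂ) :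
    pm (fun i => diagonal (d i)) = diagonal (fun x => ∏ i, d i (x i)) := by
  ext x y
  by_cases h : x = y
  · subst h
    simp [pm]
  · obtain ⟨i, hi⟩ := Function.ne_iff.mp h
    rw [diagonal_apply_ne _ h, pm, of_apply]
    exact Finset.prod_eq_zero (Finset.mem_univ i) (diagonal_apply_ne _ hi)

lemma pm_one {n : ℕ} : pm (fun _ : Fin n => (1 : Matrix (Fin 2) (Fin 2) ℂ)) = 1 := by
  have := pm_diagonal (fun (_ : Fin n) (_ : Fin 2) => (1 : ℂ))
  simpa using this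

lemma pm_trace {n : ℕ} (A : Fin n → Matrix (Fin 2) (Fin 2) ℂ) :
    trace (pm A) = ∏ i, trace (A i) := sum_prod (fun i a => A i a a)

lemma pm_psd {n : ℕ} {A : Fin n → Matrix (Fin 2) (Fin 2) ℂ} (h : ∀ i, (A i).PosSemidef) :
    (pm A).PosSemidef := by
  choose B hB using fun i => CStarAlgebra.nonneg_iff_eq_star_mul_self.mp (h i).nonneg
  have e : pm A = (pm B)ᴴ * pm B := by
    rw [pm_star, pm_mul]
    congr 1
    ext1 i
    rw [hB i, star_eq_conjTranspose]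
  rw [e]
  exact posSemidef_conjTranspose_mul_self _

lemma sum_negMulLog_prod {n : ℕ} (d : Fin n → Fin 2 → ℝ) (h1 : ∀ i, ∑ a, d i a = 1) :
    ∑ x : Fin n → Fin 2, Real.negMulLog (∏ i, d i (x i)) = ∑ i, ∑ a, Real.negMulLog (d i a) := by
  have e : ∀ x : Fin n → Fin 2, Real.negMulLog (∏ i, d i (x i)) =
      ∑ i, (∏ j, d j (x j)) * (-Real.log (d i (x i))) := by
    intro x
    by_cases h : ∏ i, d i (x i) = 0
    · simp [h]
    · rw [Real.negMulLog, Real.log_prod (fun i _ => Finset.prod_ne_zero_iff.mp h i (Finset.mem_univ i)),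
        Finset.mul_sum]
      exact Finset.sum_congr rfl fun i _ => by ring
  simp_rw [e]
  rw [Finset.sum_comm]
  refine Finset.sum_congr rfl fun i _ => ?_
  rw [expect_coord d h1 i (fun a => -Real.log (d i a))]
  exact Finset.sum_congr rfl fun a _ => by rw [Real.negMulLog]; ring

lemma ent_pm {n : ℕ} {A : Fin n → Matrix (Fin 2) (Fin 2) ℂ} (h : ∀ i, (A i).IsHermitian)
    (h1 : ∀ i, rtr (A i) = 1) : ent (pm A) = ∑ i, ent (A i) := by
  have e : pm A = pm (fun i => sU (A i)) *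
      diagonal (fun x : Fin n → Fin 2 => ((∏ i, sd (A i) (x i) : ℝ) : ℂ)) *
        pm (fun i => (sU (A i))ᴴ) := by
    simp only [Complex.ofReal_prod]
    rw [← pm_diagonal (fun i a => ((sd (A i) a : ℝ) : ℂ)), pm_mul, pm_mul]
    congr 1
    ext1 i
    exact (fc_id (h i)).symm
  rw [e, ent_conj _ _ (by rw [pm_mul]; simp only [sU_mul']; exact pm_one), ent_diagonal,
    sum_negMulLog_prod _ (fun i => by rw [← rtr_sd (h i), h1 i])]
  exact Finset.sum_congr rfl fun i _ => (ent_sd (h i)).symm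

/-- Kraus operators -/
noncomputable def kA (γ ν : ℝ) : Fin 4 → Matrix (Fin 2) (Fin 2) ℂ :=
  ![!![(√(1 - ν) : ℝ), 0; 0, (√(1 - ν) * √(1 - γ) : ℝ)], !![0, (√(1 - ν) * √γ : ℝ); 0, 0],
    !![(√ν * √(1 - γ) : ℝ), 0; 0, (√ν : ℝ)], !![0, 0; (√ν * √γ : ℝ), 0]]

lemma gad_kraus {γ ν : ℝ} (hγ : γ ∈ Set.Icc (0 : ℝ) 1) (hν : ν ∈ Set.Icc (0 : ℝ) 1)
    (x' y' x y : Fin 2) :
    gad γ ν (single x' y' 1) x y = ∑ k, kA γ ν k x x' * star (kA γ ν k y y') := by
  have h1 : ((√ν : ℝ) : ℂ) ^ 2 = ν := by exact_mod_cast Real.sq_sqrt hν.1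
  have h2 : ((√(1 - ν) : ℝ) : ℂ) ^ 2 = 1 - ν := by
    exact_mod_cast Real.sq_sqrt (sub_nonneg.mpr hν.2)
  have h3 : ((√γ : ℝ) : ℂ) ^ 2 = γ := by exact_mod_cast Real.sq_sqrt hγ.1
  have h4 : ((√(1 - γ) : ℝ) : ℂ) ^ 2 = 1 - γ := by
    exact_mod_cast Real.sq_sqrt (sub_nonneg.mpr hγ.2)
  fin_cases x' <;> fin_cases y' <;> fin_cases x <;> fin_cases y <;>
    simp [gad, kA, Fin.sum_univ_four]
  · linear_combination (-1 : ℂ) * h2 - (1 - γ) * h1 - ((√ν : ℝ) : ℂ) ^ 2 * h4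
  · linear_combination (-(γ : ℂ)) * h1 - ((√ν : ℝ) : ℂ) ^ 2 * h3
  · linear_combination (-((√(1 - γ) : ℝ) : ℂ)) * h1 - ((√(1 - γ) : ℝ) : ℂ) * h2
  · linear_combination (-((√(1 - γ) : ℝ) : ℂ)) * h1 - ((√(1 - γ) : ℝ) : ℂ) * h2
  · linear_combination (-(γ : ℂ)) * h2 - ((√(1 - ν) : ℝ) : ℂ) ^ 2 * h3
  · linear_combination (-1 : ℂ) * h1 - (1 - γ) * h2 - ((√(1 - ν) : ℝ) : ℂ) ^ 2 * h4

lemma tp_kraus {γ ν : ℝ} (hγ : γ ∈ Set.Icc (0 : ℝ) 1) (hν : ν ∈ Set.Icc (0 : ℝ) 1) (n : ℕ)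
    (τ : Matrix (Fin n → Fin 2) (Fin n → Fin 2) ℂ) :
    tensorPow (gad γ ν) n τ = kr (fun k : Fin n → Fin 4 => pm (fun i => kA γ ν (k i))) τ := by
  ext x y
  simp only [tensorPow, of_apply, kr, Matrix.sum_apply, Matrix.mul_apply, conjTranspose_apply,
    pm, gad_kraus hγ hν, ← sum_prod, Finset.sum_mul, Finset.prod_mul_distrib, star_prod]
  rw [Finset.sum_comm]
  conv_rhs => rw [Finset.sum_comm]
  refine Finset.sum_congr rfl fun y' _ => ?_
  rw [Finset.sum_comm]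
  refine Finset.sum_congr rfl fun k _ => Finset.sum_congr rfl fun x' _ => ?_
  ring

/-- transition probabilities of the populations -/
noncomputable def T (γ ν : ℝ) : Fin 2 → Fin 2 → ℝ :=
  ![![1 - γ * ν, γ * ν], ![γ * (1 - ν), 1 - γ * (1 - ν)]]

lemma T_sum (γ ν : ℝ) (b : Fin 2) : ∑ a, T γ ν b a = 1 := by
  fin_cases b <;> simp [T]

lemma gad_diag (γ ν : ℝ) (x' y' x : Fin 2) :
    gad γ ν (single x' y' 1) x x = if x' = y' then (T γ ν x' x : ℂ) else 0 := by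
  fin_cases x' <;> fin_cases y' <;> fin_cases x <;> simp [gad, T] <;> ring

lemma tp_diag (γ ν : ℝ) (n : ℕ) (τ : Matrix (Fin n → Fin 2) (Fin n → Fin 2) ℂ)
    (x : Fin n → Fin 2) :
    (tensorPow (gad γ ν) n τ x x).re = ∑ x', (∏ i, T γ ν (x' i) (x i)) * (τ x' x').re := by
  simp only [tensorPow, of_apply, gad_diag, Complex.re_sum]
  refine Finset.sum_congr rfl fun x' _ => ?_
  rw [Finset.sum_eq_single x']
  · simp only [if_true, ← Complex.ofReal_prod, Complex.re_ofReal_mul]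
  · intro y' _ h
    obtain ⟨i, hi⟩ := Function.ne_iff.mp h
    rw [Finset.prod_eq_zero (Finset.mem_univ i) (if_neg (Ne.symm hi))]
    simp
  · simp

lemma rtr_eq_sum {I : Type} [Fintype I] (τ : Matrix I I ℂ) : rtr τ = ∑ x, (τ x x).re := by
  simp [rtr, trace]

lemma tp_rtr (γ ν : ℝ) (n : ℕ) (τ : Matrix (Fin n → Fin 2) (Fin n → Fin 2) ℂ) :
    rtr (tensorPow (gad γ ν) n τ) = rtr τ := by
  rw [rtr_eq_sum, rtr_eq_sum]
  simp only [tp_diag]
  rw [Finset.sum_comm]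
  refine Finset.sum_congr rfl fun x' _ => ?_
  rw [← Finset.sum_mul, sum_prod (fun i a => T γ ν (x' i) a)]
  simp only [T_sum, Finset.prod_const_one, one_mul]

lemma tp_expect (γ ν : ℝ) (n : ℕ) (τ : Matrix (Fin n → Fin 2) (Fin n → Fin 2) ℂ) (i : Fin n)
    (g : Fin 2 → ℝ) :
    ∑ x, g (x i) * (tensorPow (gad γ ν) n τ x x).re =
      ∑ x, (∑ a, T γ ν (x i) a * g a) * (τ x x).re := by
  simp only [tp_diag, Finset.mul_sum]
  rw [Finset.sum_comm]
  refine Finset.sum_congr rfl fun x' _ => ?_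
  rw [← expect_coord (fun j a => T γ ν (x' j) a) (fun j => T_sum γ ν _) i g, Finset.sum_mul]
  exact Finset.sum_congr rfl fun x _ => by ring

/-- splitting off the first qubit -/
def spl (n : ℕ) : (Fin n → Fin 2) ⊕ (Fin n → Fin 2) ≃ (Fin (n + 1) → Fin 2) where
  toFun := Sum.elim (fun x => Fin.cons 0 x) (fun x => Fin.cons 1 x)
  invFun x := if x 0 = 0 then Sum.inl (Fin.tail x) else Sum.inr (Fin.tail x)
  left_inv := by rintro (x | x) <;> simp
  right_inv x := by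
    by_cases h : x 0 = 0
    · simp only [h, if_true, Sum.elim_inl]
      rw [← h, Fin.cons_self_tail]
    · have h1 : x 0 = 1 := by omega
      simp only [h, if_false, Sum.elim_inr]
      rw [← h1, Fin.cons_self_tail]

/-- blocks with respect to the first qubit -/
def blk {n : ℕ} (τ : Matrix (Fin (n + 1) → Fin 2) (Fin (n + 1) → Fin 2) ℂ) (i j : Fin 2) :
    Matrix (Fin n → Fin 2) (Fin n → Fin 2) ℂ := Matrix.of fun x y => τ (Fin.cons i x) (Fin.cons j y)

lemma sum_spl {n : ℕ} {M : Type} [AddCommMonoid M] (f : (Fin (n + 1) → Fin 2) → M) :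
    ∑ x, f x = ∑ x : Fin n → Fin 2, f (Fin.cons 0 x) + ∑ x : Fin n → Fin 2, f (Fin.cons 1 x) := by
  rw [← (spl n).sum_comp, Fintype.sum_sum_type]
  rfl

lemma tp_succ (Φ : Matrix (Fin 2) (Fin 2) ℂ → Matrix (Fin 2) (Fin 2) ℂ) {n : ℕ}
    (τ : Matrix (Fin (n + 1) → Fin 2) (Fin (n + 1) → Fin 2) ℂ) (i j : Fin 2)
    (x y : Fin n → Fin 2) :
    tensorPow Φ (n + 1) τ (Fin.cons i x) (Fin.cons j y) =
      Φ (single 0 0 1) i j * tensorPow Φ n (blk τ 0 0) x y +
      Φ (single 0 1 1) i j * tensorPow Φ n (blk τ 0 1) x y +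
      (Φ (single 1 0 1) i j * tensorPow Φ n (blk τ 1 0) x y +
      Φ (single 1 1 1) i j * tensorPow Φ n (blk τ 1 1) x y) := by
  simp only [tensorPow, of_apply, blk, sum_spl, Fin.prod_univ_succ, Fin.cons_zero, Fin.cons_succ,
    Finset.sum_add_distrib, Finset.mul_sum, mul_assoc]
  ring

lemma tp_bound {γ ν : ℝ} (hγ : γ ∈ Set.Icc (0 : ℝ) 1) (hν : ν ∈ Set.Icc (0 : ℝ) 1) (n : ℕ) :
    ∀ (w : Fin n → Fin 2 → ℝ), (∀ i, Wok γ ν (w i 0) (w i 1)) →
      ∀ τ : Matrix (Fin n → Fin 2) (Fin n → Fin 2) ℂ, τ.PosSemidef →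
        ∑ x, (∑ i, w i (x i)) * (τ x x).re ≤ E (tensorPow (gad γ ν) n τ) := by
  induction n with
  | zero =>
    intro w _ τ hτ
    have h : (tensorPow (gad γ ν) 0 τ).IsHermitian := by
      rw [tp_kraus hγ hν]
      exact (kr_psd _ hτ).1
    rw [E, ent_sd h, rtr_sd h]
    simp
  | succ n ih =>
    intro w hw τ hτ
    have hY : blk τ 1 0 = (blk τ 0 1)ᴴ := by
      ext x y
      exact (hτ.1.apply _ _).symm
    have hb : (fromBlocks (blk τ 0 0) (blk τ 0 1) (blk τ 0 1)ᴴ (blk τ 1 1)).PosSemidef := by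
      have := hτ.submatrix (spl n)
      convert this using 1
      rw [← hY]
      ext (x | x) (y | y) <;> rfl
    let H : Matrix (Fin n → Fin 2) (Fin n → Fin 2) ℂ := dg (fun x => ∑ i, w i.succ (x i))
    have hH : ∀ σ, rtr (H * σ) = ∑ x, (∑ i, w i.succ (x i)) * (σ x x).re := by
      intro σ
      rw [rtr_eq_sum]
      refine Finset.sum_congr rfl fun x _ => ?_
      simp only [H, dg, diagonal_mul, Complex.re_ofReal_mul]
    have h := hw 0 _ _ _ (fun k : Fin n → Fin 4 => pm (fun i => kA γ ν (k i)))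
      (fun σ => by rw [← tp_kraus hγ hν, tp_rtr]) H (dg_herm _)
      (fun σ hσ => by
        rw [← tp_kraus hγ hν, hH]
        exact ih (fun i => w i.succ) (fun i => hw i.succ) σ hσ) _ _ _ hb
    rw [← E_submatrix (spl n)]
    refine le_trans (le_of_eq ?_) (h.trans (le_of_eq ?_))
    · rw [sum_spl, hH, hH, rtr_eq_sum, rtr_eq_sum]
      simp only [Fin.sum_univ_succ (n := n), Fin.cons_zero, Fin.cons_succ, blk, of_apply, add_mul,
        Finset.sum_add_distrib, Finset.mul_sum]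
      ring
    · congr 1
      rw [outp, ← kr_star, ← hY]
      simp only [← tp_kraus hγ hν]
      ext (x | x) (y | y)
      · change _ = tensorPow (gad γ ν) (n + 1) τ (Fin.cons 0 x) (Fin.cons 0 y)
        rw [tp_succ]
        simp [gad]
        exact Or.inl (by ring)
      · change _ = tensorPow (gad γ ν) (n + 1) τ (Fin.cons 0 x) (Fin.cons 1 y)
        rw [tp_succ]
        simp [gad]
      · change _ = tensorPow (gad γ ν) (n + 1) τ (Fin.cons 1 x) (Fin.cons 0 y)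
        rw [tp_succ]
        simp [gad]
      · change _ = tensorPow (gad γ ν) (n + 1) τ (Fin.cons 1 x) (Fin.cons 1 y)
        rw [tp_succ]
        simp [gad]
        exact Or.inl (by ring)

end Vale.Agent.P358
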